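import Vale.Agent.Lib.P329.Basic

namespace Vale.Agent.Lib.P329

open GExp

/-- The run of a deterministic automaton on a word. -/
def run {Q α : Type} (δ : Q → α → Q) (s : Q) (w : List α) : Q := w.foldl δ s

section runlemmas
variable {Q α : Type} (δ : Q → α → Q)

@[simp] theorem run_nil (s : Q) : run δ s [] = s := rfl
@[simp] theorem run_cons (s : Q) (a : α) (w : List α) : run δ s (a :: w) = run δ (δ s a) w := rfl
@[simp] theorem run_append (s : Q) (u v : List α) : run δ s (u ++ v) = run δ (run δ s u) v := by
  simp [run, List.foldl_append]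

end runlemmas

/-- Aperiodicity of the action of words on states: a state on a cycle of a word is fixed by
this word. -/
def Aper {Q α : Type} (δ : Q → α → Q) : Prop :=
  ∀ (w : List α) (s : Q) (k : ℕ), 0 < k → (fun q => run δ q w)^[k] s = s → run δ s w = s

/-! ### Parsing and substitution -/

section subst

variable {α C : Type}

/-- `Parse K l w`: the word `w` is the concatenation of words from the languages `K c`,
for `c` running through the list `l`. -/
def Parse (K : C → Set (List α)) : List C → List α → Prop
  | [], w => w = []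
  | c :: l, w => ∃ u v, w = u ++ v ∧ u ∈ K c ∧ Parse K l v

theorem parse_append (K : C → Set (List α)) (l₁ l₂ : List C) (w : List α) :
    Parse K (l₁ ++ l₂) w ↔ ∃ u v, w = u ++ v ∧ Parse K l₁ u ∧ Parse K l₂ v := by
  induction l₁ generalizing w with
  | nil =>
    simp only [List.nil_append, Parse]
    constructor
    · intro h; exact ⟨[], w, rfl, rfl, h⟩
    · rintro ⟨u, v, rfl, rfl, h⟩; simpa using h
  | cons c l ih =>
    simp only [List.cons_append, Parse]
    constructor
    · rintro ⟨u, v, rfl, hu, hv⟩
      obtain ⟨u', v', rfl, h1, h2⟩ := (ih v).1 hv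
      exact ⟨u ++ u', v', by simp, ⟨u, u', rfl, hu, h1⟩, h2⟩
    · rintro ⟨u, v, rfl, ⟨u', v', rfl, h1, h2⟩, h3⟩
      exact ⟨u', v' ++ v, by simp, h1, (ih _).2 ⟨v', v, rfl, h2, h3⟩⟩

/-- Image of a language over `C` under the substitution `K`. -/
def subst (K : C → Set (List α)) (L : Set (List C)) : Set (List α) :=
  {w | ∃ l ∈ L, Parse K l w}

theorem parse_unique {K : C → Set (List α)}
    (hcode : ∀ c c' u u' v v', u ∈ K c → u' ∈ K c' → u ++ v = u' ++ v' → c = c' ∧ u = u')
    (hne : ∀ c, [] ∉ K c) :
    ∀ (l l' : List C) (w : List α), Parse K l w → Parse K l' w → l = l' := by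
  intro l
  induction l with
  | nil =>
    intro l' w h h'
    cases l' with
    | nil => rfl
    | cons c t =>
      obtain ⟨u, v, huv, hu, _⟩ := h'
      have h0 : w = [] := h
      subst h0
      have : u = [] := (List.append_eq_nil_iff.1 huv.symm).1
      subst this
      exact absurd hu (hne c)
  | cons c t ih =>
    intro l' w h h'
    cases l' with
    | nil =>
      obtain ⟨u, v, huv, hu, _⟩ := h
      have h0 : w = [] := h'
      subst h0
      have : u = [] := (List.append_eq_nil_iff.1 huv.symm).1
      subst this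
      exact absurd hu (hne c)
    | cons c' t' =>
      obtain ⟨u, v, rfl, hu, hv⟩ := h
      obtain ⟨u', v', huv', hu', hv'⟩ := h'
      obtain ⟨rfl, rfl⟩ := hcode c c' u u' v v' hu hu' huv'
      have : v = v' := by simpa using huv'
      subst this
      rw [ih t' v hv hv']

theorem sf_subst {K : C → Set (List α)} (hK : ∀ c, SF (K c))
    (hcode : ∀ c c' u u' v v', u ∈ K c → u' ∈ K c' → u ++ v = u' ++ v' → c = c' ∧ u = u')
    (hne : ∀ c, [] ∉ K c)
    (hX : SF {w | ∃ l, Parse K l w}) :
    ∀ e : GExp C, e.sh = 0 → SF (subst K e.lang) := by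
  intro e
  induction e with
  | zero =>
    intro _
    have : subst K (GExp.zero : GExp C).lang = ∅ := by
      ext w; simp [subst, GExp.lang]
    rw [this]; exact SF.empty
  | one =>
    intro _
    have : subst K (GExp.one : GExp C).lang = {[]} := by
      ext w; simp [subst, GExp.lang, Parse]
    rw [this]; exact SF.nil
  | lit c =>
    intro _
    have : subst K (GExp.lit c : GExp C).lang = K c := by
      ext w
      simp only [subst, GExp.lang, Parse, Set.mem_singleton_iff, exists_eq_left, Set.mem_ofPred_eq]
      constructor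
      · rintro ⟨u, v, rfl, hu, rfl⟩; simpa using hu
      · intro h; exact ⟨w, [], by simp, h, rfl⟩
    rw [this]; exact hK c
  | add p q ihp ihq =>
    intro h
    have hp : p.sh = 0 := by simp [GExp.sh] at h; exact h.1
    have hq : q.sh = 0 := by simp [GExp.sh] at h; exact h.2
    have : subst K (GExp.add p q).lang = subst K p.lang ∪ subst K q.lang := by
      ext w
      simp only [subst, GExp.lang, Set.mem_ofPred_eq, Set.mem_union]
      constructor
      · rintro ⟨l, hl | hl, h⟩
        · exact Or.inl ⟨l, hl, h⟩
        · exact Or.inr ⟨l, hl, h⟩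
      · rintro (⟨l, hl, h⟩ | ⟨l, hl, h⟩)
        · exact ⟨l, Or.inl hl, h⟩
        · exact ⟨l, Or.inr hl, h⟩
    rw [this]; exact (ihp hp).union (ihq hq)
  | mul p q ihp ihq =>
    intro h
    have hp : p.sh = 0 := by simp [GExp.sh] at h; exact h.1
    have hq : q.sh = 0 := by simp [GExp.sh] at h; exact h.2
    have : subst K (GExp.mul p q).lang = conc (subst K p.lang) (subst K q.lang) := by
      ext w
      simp only [subst, GExp.lang, Set.mem_ofPred_eq, conc]
      constructor
      · rintro ⟨l, ⟨l₁, h1, l₂, h2, rfl⟩, h⟩
        obtain ⟨u, v, rfl, hu, hv⟩ := (parse_append K l₁ l₂ w).1 h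
        exact ⟨u, ⟨l₁, h1, hu⟩, v, ⟨l₂, h2, hv⟩, rfl⟩
      · rintro ⟨u, ⟨l₁, h1, hu⟩, v, ⟨l₂, h2, hv⟩, rfl⟩
        exact ⟨l₁ ++ l₂, ⟨l₁, h1, l₂, h2, rfl⟩, (parse_append K l₁ l₂ _).2 ⟨u, v, rfl, hu, hv⟩⟩
    rw [this]; exact (ihp hp).conc (ihq hq)
  | compl p ihp =>
    intro h
    have hp : p.sh = 0 := by simpa [GExp.sh] using h
    have : subst K (GExp.compl p).lang = {w | ∃ l, Parse K l w} \ subst K p.lang := by
      ext w
      simp only [subst, GExp.lang, Set.mem_ofPred_eq, Set.mem_sdiff]
      constructor
      · rintro ⟨l, hl, h⟩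
        refine ⟨⟨l, h⟩, ?_⟩
        rintro ⟨l', hl', h'⟩
        have := parse_unique hcode hne l l' w h h'
        subst this
        exact hl hl'
      · rintro ⟨⟨l, h⟩, hn⟩
        exact ⟨l, fun hl => hn ⟨l, hl, h⟩, h⟩
    rw [this]; exact hX.sdiff (ihp hp)
  | star p _ =>
    intro h
    simp [GExp.sh] at h

end subst

/-! ### List splitting -/

section split
variable {α : Type}

theorem split_first (a : α) (w : List α) : a ∉ w ∨ ∃ x v, w = x ++ a :: v ∧ a ∉ x := by
  classical
  induction w with
  | nil => left; simp
  | cons b w ih =>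
    by_cases hb : b = a
    · subst hb
      right
      exact ⟨[], w, rfl, by simp⟩
    · rcases ih with h | ⟨x, v, rfl, hx⟩
      · left
        simp only [List.mem_cons, not_or]
        exact ⟨fun h' => hb h'.symm, h⟩
      · right
        refine ⟨b :: x, v, rfl, ?_⟩
        simp only [List.mem_cons, not_or]
        exact ⟨fun h' => hb h'.symm, hx⟩

theorem split_last (a : α) (w : List α) : a ∉ w ∨ ∃ x v, w = x ++ a :: v ∧ a ∉ v := by
  classical
  induction w with
  | nil => left; simp
  | cons b w ih =>
    rcases ih with h | ⟨x, v, rfl, hv⟩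
    · by_cases hb : b = a
      · subst hb
        right
        exact ⟨[], w, rfl, h⟩
      · left
        simp only [List.mem_cons, not_or]
        exact ⟨fun h' => hb h'.symm, h⟩
    · right
      exact ⟨b :: x, v, rfl, hv⟩

theorem split_unique {a : α} {x x' v v' : List α} (hx : a ∉ x) (hx' : a ∉ x')
    (h : x ++ a :: v = x' ++ a :: v') : x = x' ∧ v = v' := by
  induction x generalizing x' with
  | nil =>
    cases x' with
    | nil =>
      simp only [List.nil_append, List.cons.injEq, true_and] at h
      exact ⟨rfl, h⟩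
    | cons b x' =>
      simp only [List.nil_append, List.cons_append, List.cons.injEq] at h
      exact absurd (by simp [h.1]) hx'
  | cons b x ih =>
    cases x' with
    | nil =>
      simp only [List.nil_append, List.cons_append, List.cons.injEq] at h
      exact absurd (by simp [← h.1]) hx
    | cons c x' =>
      simp only [List.cons_append, List.cons.injEq] at h
      obtain ⟨rfl, h2⟩ := h
      simp only [List.mem_cons, not_or] at hx hx'
      obtain ⟨h3, h4⟩ := ih hx.2 hx'.2 h2
      exact ⟨by rw [h3], h4⟩

end split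

/-! ### The words avoiding a letter -/

section avoid
variable {α : Type}

theorem sf_mem_word (a : α) : SF {w : List α | a ∈ w} := by
  have : {w : List α | a ∈ w} = conc (conc Set.univ {[a]}) Set.univ := by
    ext w
    simp only [conc, Set.mem_ofPred_eq, Set.mem_univ, true_and, Set.mem_singleton_iff]
    constructor
    · intro h
      obtain ⟨s, t, rfl⟩ := List.append_of_mem h
      exact ⟨s ++ [a], ⟨s, [a], rfl, rfl⟩, t, by simp⟩
    · rintro ⟨u, ⟨s, t, rfl, rfl⟩, v, rfl⟩
      simp
  rw [this]
  exact ((SF.univ.conc (SF.lit a)).conc SF.univ)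

theorem sf_not_mem_word (a : α) : SF {w : List α | a ∉ w} := by
  have := (sf_mem_word a).compl
  exact this

end avoid

/-! ### Restriction to an alphabet without a letter -/

section restrict
variable {α : Type} (a : α)

/-- Singletons for letters different from `a`. -/
def litK : {x : α // x ≠ a} → Set (List α) := fun x => {[x.1]}

theorem parse_litK (l : List {x : α // x ≠ a}) (w : List α) :
    Parse (litK a) l w ↔ w = l.map Subtype.val := by
  induction l generalizing w with
  | nil => simp [Parse]
  | cons c l ih =>
    simp only [Parse, List.map_cons, litK, Set.mem_singleton_iff]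
    constructor
    · rintro ⟨u, v, rfl, rfl, hv⟩
      rw [(ih v).1 hv]; rfl
    · rintro rfl
      exact ⟨[c.1], l.map Subtype.val, rfl, rfl, (ih _).2 rfl⟩

theorem exists_lift_of_not_mem (w : List α) (h : a ∉ w) :
    ∃ l : List {x : α // x ≠ a}, w = l.map Subtype.val := by
  induction w with
  | nil => exact ⟨[], rfl⟩
  | cons b w ih =>
    simp only [List.mem_cons, not_or] at h
    obtain ⟨l, rfl⟩ := ih h.2
    exact ⟨⟨b, fun hb => h.1 hb.symm⟩ :: l, rfl⟩

theorem not_mem_map_val (l : List {x : α // x ≠ a}) : a ∉ l.map Subtype.val := by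
  intro h
  simp only [List.mem_map] at h
  obtain ⟨x, _, hx⟩ := h
  exact x.2 hx

theorem sf_subst_litK (e : GExp {x : α // x ≠ a}) (he : e.sh = 0) :
    SF (subst (litK a) e.lang) := by
  refine sf_subst (K := litK a) (fun c => SF.lit _) ?_ ?_ ?_ e he
  · rintro c c' u u' v v' rfl rfl h
    simp only [List.singleton_append, List.cons.injEq] at h
    exact ⟨Subtype.ext h.1, by rw [h.1]⟩
  · intro c h
    simp [litK] at h
  · have : {w | ∃ l, Parse (litK a) l w} = {w : List α | a ∉ w} := by
      ext w
      simp only [parse_litK, Set.mem_ofPred_eq]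
      constructor
      · rintro ⟨l, rfl⟩; exact not_mem_map_val a l
      · intro h; exact exists_lift_of_not_mem a w h
    rw [this]; exact sf_not_mem_word a

end restrict

end Vale.Agent.Lib.P329
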