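import Vale.Agent.Lib.P329.Aper

namespace Vale.Agent.Lib.P329

open GExp

section main

variable {Q α : Type} (δ : Q → α → Q) (a : α)

theorem letter_fix_of_injective [Finite Q] {δ : Q → α → Q} (hδ : Aper δ) (a : α)
    (h : Function.Injective (fun q => δ q a)) (q : Q) : δ q a = q := by
  have hb : Function.Bijective (fun q => δ q a) := Finite.injective_iff_bijective.1 h
  let σ : Equiv.Perm Q := Equiv.ofBijective _ hb
  have hpos : 0 < orderOf σ := orderOf_pos σ
  have hit : (fun q => run δ q [a])^[orderOf σ] q = q := by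
    have h1 : (fun q => run δ q [a]) = σ := by funext q; rfl
    rw [h1, Equiv.Perm.iterate_eq_pow, pow_orderOf_eq_one]
    rfl
  exact hδ [a] q _ hpos hit

/-- The image of the letter `a`. -/
def Rng : Type := {q : Q // ∃ p, δ p a = q}

instance [Finite Q] : Finite (Rng δ a) := by unfold Rng; infer_instance

/-- The image of a state under the letter `a`. -/
def rngOf (s : Q) : Rng δ a := ⟨δ s a, s, rfl⟩

/-- The transformations of the image of `a` realized by words `u a` with `u` free of `a`. -/
def Cod : Type :=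
  {f : Rng δ a → Rng δ a // ∃ u : List α, a ∉ u ∧ ∀ q : Rng δ a, (f q).1 = run δ q.1 (u ++ [a])}

instance [Finite Q] : Finite (Cod δ a) := by unfold Cod; infer_instance

/-- The automaton on the image of `a` with letters the realized transformations. -/
def dC : Rng δ a → Cod δ a → Rng δ a := fun q c => c.1 q

/-- The words `u a`, with `u` free of `a`, realizing a transformation. -/
def KK (c : Cod δ a) : Set (List α) :=
  {w | ∃ u, w = u ++ [a] ∧ a ∉ u ∧ ∀ q : Rng δ a, (c.1 q).1 = run δ q.1 w}

/-- Words free of `a` leading from `s` to `t`. -/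
def UU (s t : Q) : Set (List α) := {w | a ∉ w ∧ run δ s w = t}

theorem exists_lift (l : List (Cod δ a)) : ∃ w, Parse (KK δ a) l w := by
  induction l with
  | nil => exact ⟨[], rfl⟩
  | cons c l ih =>
    obtain ⟨w, hw⟩ := ih
    obtain ⟨u, hu, hc⟩ := c.2
    exact ⟨(u ++ [a]) ++ w, u ++ [a], w, rfl, ⟨u, rfl, hu, hc⟩, hw⟩

theorem run_of_parse {l : List (Cod δ a)} {w : List α} (h : Parse (KK δ a) l w)
    (q : Rng δ a) : (run (dC δ a) q l).1 = run δ q.1 w := by
  induction l generalizing q w with
  | nil =>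
    have : w = [] := h
    subst this
    rfl
  | cons c l ih =>
    obtain ⟨u, v, rfl, ⟨x, rfl, _, hc⟩, hv⟩ := h
    rw [run_cons, ih hv, run_append]
    congr 1
    exact hc q

theorem aper_dC (hδ : Aper δ) : Aper (dC δ a) := by
  intro l s k hk hit
  obtain ⟨w, hw⟩ := exists_lift δ a l
  have hs : Function.Semiconj (Subtype.val : Rng δ a → Q) (fun q => run (dC δ a) q l)
      (fun q => run δ q w) := by
    intro q
    exact run_of_parse δ a hw q
  have h1 := (hs.iterate_right k) s
  have h3 : (fun q => run δ q w)^[k] s.1 = s.1 := h1.symm.trans (congrArg Subtype.val hit)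
  have h2 := hδ w s.1 k hk h3
  apply Subtype.ext
  rw [run_of_parse δ a hw s, h2]

theorem card_rng_lt [Finite Q] (h : ¬ Function.Injective (fun q => δ q a)) :
    Nat.card (Rng δ a) < Nat.card Q := by
  have hns : ¬ Function.Surjective (fun q => δ q a) := by
    rw [← Finite.injective_iff_surjective]; exact h
  simp only [Function.Surjective, not_forall, not_exists] at hns
  obtain ⟨x, hx⟩ := hns
  exact Finite.card_subtype_lt (p := fun q => ∃ p, δ p a = q) (x := x) (fun ⟨p, hp⟩ => hx p hp)

/-- Restriction of the automaton to the letters other than `a`. -/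
def dR : Q → {x : α // x ≠ a} → Q := fun q x => δ q x.1

theorem run_dR (l : List {x : α // x ≠ a}) (q : Q) :
    run (dR δ a) q l = run δ q (l.map Subtype.val) := by
  induction l generalizing q with
  | nil => rfl
  | cons c l ih => simp only [run_cons, List.map_cons]; rw [ih]; rfl

theorem aper_dR (hδ : Aper δ) : Aper (dR δ a) := by
  intro l s k hk hit
  have h1 : (fun q => run (dR δ a) q l) = (fun q => run δ q (l.map Subtype.val)) := by
    funext q; exact run_dR δ a l q
  rw [h1] at hit
  rw [run_dR]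
  exact hδ _ s k hk hit

theorem sf_UU (h : ∀ s t, SF {l | run (dR δ a) s l = t}) (s t : Q) : SF (UU δ a s t) := by
  obtain ⟨e, he, hl⟩ := h s t
  have := sf_subst_litK a e he
  rw [hl] at this
  convert this using 1
  ext w
  simp only [UU, subst, Set.mem_ofPred_eq, parse_litK]
  constructor
  · rintro ⟨hw, hr⟩
    obtain ⟨l, rfl⟩ := exists_lift_of_not_mem a w hw
    exact ⟨l, by rw [run_dR]; exact hr, rfl⟩
  · rintro ⟨l, hl, rfl⟩
    exact ⟨not_mem_map_val a l, by rw [← run_dR]; exact hl⟩

theorem sf_KK [Finite Q] (hU : ∀ s t, SF (UU δ a s t)) (q0 : Rng δ a) (c : Cod δ a) : SF (KK δ a c) := by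
  have h1 : KK δ a c = ⋂ q : Rng δ a, ⋃ p : {p : Q // δ p a = (c.1 q).1},
      conc (UU δ a q.1 p.1) {[a]} := by
    ext w
    simp only [KK, Set.mem_ofPred_eq, Set.mem_iInter, Set.mem_iUnion, conc, UU,
      Set.mem_singleton_iff]
    constructor
    · rintro ⟨u, rfl, hu, hc⟩ q
      refine ⟨⟨run δ q.1 u, ?_⟩, u, ⟨hu, rfl⟩, [a], rfl, rfl⟩
      rw [hc q, run_append]; rfl
    · intro h
      obtain ⟨p0, u0, ⟨hu0, _⟩, _, rfl, rfl⟩ := h q0
      refine ⟨u0, rfl, hu0, ?_⟩
      intro q
      obtain ⟨p, u, ⟨_, hr⟩, _, rfl, hw⟩ := h q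
      have : u = u0 := by
        simpa using hw.symm
      subst this
      rw [run_append, hr]
      exact p.2.symm
  rw [h1]
  exact SF.iInter' (fun q => SF.iUnion (fun p => (hU _ _).conc (SF.lit a)))

theorem KK_code (c c' : Cod δ a) (u u' v v' : List α) (hu : u ∈ KK δ a c) (hu' : u' ∈ KK δ a c')
    (h : u ++ v = u' ++ v') : c = c' ∧ u = u' := by
  obtain ⟨x, rfl, hx, hc⟩ := hu
  obtain ⟨x', rfl, hx', hc'⟩ := hu'
  simp only [List.append_assoc, List.cons_append, List.nil_append] at h
  obtain ⟨rfl, _⟩ := split_unique hx hx' h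
  refine ⟨?_, rfl⟩
  apply Subtype.ext
  funext q
  apply Subtype.ext
  rw [hc q, hc' q]

theorem KK_ne (c : Cod δ a) : [] ∉ KK δ a c := by
  rintro ⟨x, hx, _, _⟩
  simp at hx

theorem parse_iff (w : List α) :
    (∃ l, Parse (KK δ a) l w) ↔ w = [] ∨ ∃ m, w = m ++ [a] := by
  constructor
  · rintro ⟨l, h⟩
    induction l generalizing w with
    | nil => left; exact h
    | cons c l ih =>
      right
      obtain ⟨u, v, rfl, ⟨x, rfl, _, _⟩, hv⟩ := h
      rcases ih v hv with rfl | ⟨m, rfl⟩
      · exact ⟨x, by simp⟩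
      · exact ⟨x ++ [a] ++ m, by simp⟩
  · induction h : w.length using Nat.strong_induction_on generalizing w with
    | _ n ih =>
      rintro (rfl | ⟨m, rfl⟩)
      · exact ⟨[], rfl⟩
      · rcases split_first a (m ++ [a]) with h1 | ⟨x, v, hxv, hx⟩
        · simp at h1
        · have hv : v = [] ∨ ∃ m', v = m' ++ [a] := by
            rcases List.eq_nil_or_concat v with rfl | ⟨v', b, rfl⟩
            · left; rfl
            · right
              have h2 : m ++ [a] = (x ++ a :: v') ++ [b] := by simpa using hxv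
              have h3 := (List.append_inj' h2 rfl).2
              simp only [List.cons.injEq, and_true] at h3
              subst h3
              exact ⟨v', by simp⟩
          have hlen : v.length < n := by
            rw [← h]
            rw [hxv]
            simp
            omega
          obtain ⟨l, hl⟩ := ih v.length hlen v rfl hv
          let f : Rng δ a → Rng δ a := fun q => ⟨run δ q.1 (x ++ [a]), by
            rw [run_append]; exact ⟨_, rfl⟩⟩
          let c : Cod δ a := ⟨f, x, hx, fun q => rfl⟩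
          refine ⟨c :: l, x ++ [a], v, by rw [hxv]; simp, ⟨x, rfl, hx, fun q => rfl⟩, hl⟩

theorem sf_X : SF {w | ∃ l, Parse (KK δ a) l w} := by
  have : {w | ∃ l, Parse (KK δ a) l w} = {[]} ∪ conc Set.univ {[a]} := by
    ext w
    simp only [Set.mem_ofPred_eq, parse_iff, Set.mem_union, Set.mem_singleton_iff, conc,
      Set.mem_univ, true_and]
    constructor
    · rintro (h | ⟨m, rfl⟩)
      · exact Or.inl h
      · exact Or.inr ⟨m, [a], rfl, rfl⟩
    · rintro (h | ⟨m, _, rfl, rfl⟩)
      · exact Or.inl h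
      · exact Or.inr ⟨m, rfl⟩
  rw [this]
  exact SF.nil.union (SF.univ.conc (SF.lit a))

theorem decomp (s t : Q) : {w | run δ s w = t} = UU δ a s t ∪ ⋃ s' : Q, ⋃ r' : Rng δ a,
    conc (conc (conc (UU δ a s s') {[a]})
      (subst (KK δ a) {l | run (dC δ a) (rngOf δ a s') l = r'})) (UU δ a r'.1 t) := by
  ext w
  simp only [Set.mem_ofPred_eq, Set.mem_union, Set.mem_iUnion, conc, UU, subst,
    Set.mem_singleton_iff]
  constructor
  · intro hw
    rcases split_first a w with h1 | ⟨x, y, rfl, hx⟩
    · exact Or.inl ⟨h1, hw⟩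
    · right
      rw [run_append, run_cons] at hw
      -- split `y` at its last `a`
      have hy : ∃ m v, y = m ++ v ∧ a ∉ v ∧ (m = [] ∨ ∃ m', m = m' ++ [a]) := by
        rcases split_last a y with h2 | ⟨m0, v, rfl, hv⟩
        · exact ⟨[], y, rfl, h2, Or.inl rfl⟩
        · exact ⟨m0 ++ [a], v, by simp, hv, Or.inr ⟨m0, rfl⟩⟩
      obtain ⟨m, v, rfl, hv, hm⟩ := hy
      obtain ⟨l, hl⟩ := (parse_iff δ a m).2 hm
      rw [run_append] at hw
      refine ⟨run δ s x, run (dC δ a) (rngOf δ a (run δ s x)) l, x ++ [a] ++ m, ⟨x ++ [a], ⟨x, ⟨hx, rfl⟩, [a], rfl, rfl⟩, m,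
        ⟨l, rfl, hl⟩, rfl⟩, v, ⟨hv, ?_⟩, by simp⟩
      rw [run_of_parse δ a hl]
      exact hw
  · rintro (⟨_, h⟩ | ⟨s', r', _, ⟨_, ⟨x, ⟨_, hx⟩, _, rfl, rfl⟩, m, ⟨l, hl, hp⟩, rfl⟩, v, ⟨_, hv⟩, rfl⟩)
    · exact h
    · simp only [run_append, run_cons, run_nil, hx]
      rw [show δ s' a = (rngOf δ a s').1 from rfl, ← run_of_parse δ a hp (rngOf δ a s'), hl]
      exact hv

theorem step [Finite Q] (hU : ∀ s t, SF (UU δ a s t))
    (hQ' : ∀ s r, SF {l | run (dC δ a) s l = r}) (s t : Q) : SF {w | run δ s w = t} := by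
  rw [decomp δ a s t]
  refine (hU s t).union (SF.iUnion fun s' => SF.iUnion fun r' => ?_)
  refine ((((hU _ _).conc (SF.lit a)).conc ?_).conc (hU _ _))
  obtain ⟨e, he, hl⟩ := hQ' (rngOf δ a s') r'
  have := sf_subst (K := KK δ a) (sf_KK δ a hU (rngOf δ a s')) (KK_code δ a) (KK_ne δ a)
    (sf_X δ a) e he
  rw [hl] at this
  exact this

end main

/-- Aperiodic automata have star-free languages (one direction of Schutzenberger's theorem). -/
theorem sf_of_aper_aux (n : ℕ) : ∀ (Q : Type) [Finite Q], Nat.card Q = n →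
    ∀ (m : ℕ) (α : Type) [Finite α], Nat.card α = m →
    ∀ δ : Q → α → Q, Aper δ → ∀ s t, SF {w | run δ s w = t} := by
  induction n using Nat.strong_induction_on with
  | _ n ihn =>
    intro Q _ hQ m
    induction m using Nat.strong_induction_on with
    | _ m ihm =>
      intro α _ hα δ hδ s t
      by_cases hinj : ∀ a, Function.Injective (fun q => δ q a)
      · have hfix : ∀ (w : List α) (q : Q), run δ q w = q := by
          intro w
          induction w with
          | nil => intro q; rfl
          | cons a w ih =>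
            intro q
            rw [run_cons, letter_fix_of_injective hδ a (hinj a) q, ih]
        by_cases hst : s = t
        · have : {w | run δ s w = t} = Set.univ := by
            ext w; simp [hfix, hst]
          rw [this]; exact SF.univ
        · have : {w | run δ s w = t} = ∅ := by
            ext w; simp [hfix, hst]
          rw [this]; exact SF.empty
      · simp only [not_forall] at hinj
        obtain ⟨a, ha⟩ := hinj
        have hU : ∀ s t, SF (UU δ a s t) := by
          apply sf_UU
          exact ihm (Nat.card {x : α // x ≠ a})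
            (by rw [← hα]; exact Finite.card_subtype_lt (x := a) (by simp)) _ rfl _
            (aper_dR δ a hδ)
        apply step δ a hU
        exact ihn (Nat.card (Rng δ a)) (by rw [← hQ]; exact card_rng_lt δ a ha) _ rfl _ _ rfl _
          (aper_dC δ a hδ)

theorem sf_of_aper {Q α : Type} [Finite Q] [Finite α] {δ : Q → α → Q} (hδ : Aper δ) (s t : Q) :
    SF {w | run δ s w = t} :=
  sf_of_aper_aux _ Q rfl _ α rfl δ hδ s t

end Vale.Agent.Lib.P329
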