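import Vale.Agent.Lib.P329.Defs
import Mathlib

namespace Vale.Agent.Lib.P329

open GExp

variable {α : Type}

/-- Star-free languages. -/
def SF (L : Set (List α)) : Prop := ∃ e : GExp α, e.sh = 0 ∧ e.lang = L

/-- Languages of generalized star height at most one. -/
abbrev H1 (L : Set (List α)) : Prop := GenStarHeightLeOne L

/-- Concatenation of languages. -/
def conc (L M : Set (List α)) : Set (List α) := {w | ∃ u ∈ L, ∃ v ∈ M, w = u ++ v}

theorem SF.empty : SF (∅ : Set (List α)) := ⟨zero, rfl, rfl⟩
theorem SF.nil : SF ({[]} : Set (List α)) := ⟨one, rfl, rfl⟩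
theorem SF.lit (a : α) : SF ({[a]} : Set (List α)) := ⟨GExp.lit a, rfl, rfl⟩

theorem SF.union {L M : Set (List α)} (hL : SF L) (hM : SF M) : SF (L ∪ M) := by
  obtain ⟨e, he, rfl⟩ := hL
  obtain ⟨f, hf, rfl⟩ := hM
  exact ⟨add e f, by simp [sh, he, hf], rfl⟩

theorem SF.conc {L M : Set (List α)} (hL : SF L) (hM : SF M) : SF (conc L M) := by
  obtain ⟨e, he, rfl⟩ := hL
  obtain ⟨f, hf, rfl⟩ := hM
  exact ⟨mul e f, by simp [sh, he, hf], rfl⟩

theorem SF.compl {L : Set (List α)} (hL : SF L) : SF Lᶜ := by
  obtain ⟨e, he, rfl⟩ := hL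
  exact ⟨GExp.compl e, by simp [sh, he], rfl⟩

theorem SF.univ : SF (Set.univ : Set (List α)) := by
  have := (SF.empty (α := α)).compl
  simpa using this

theorem SF.inter {L M : Set (List α)} (hL : SF L) (hM : SF M) : SF (L ∩ M) := by
  have := (hL.compl.union hM.compl).compl
  simpa [Set.compl_union] using this

theorem SF.sdiff {L M : Set (List α)} (hL : SF L) (hM : SF M) : SF (L \ M) :=
  hL.inter hM.compl

theorem SF.biUnion {ι : Type} (s : Finset ι) {f : ι → Set (List α)} (h : ∀ i ∈ s, SF (f i)) :
    SF (⋃ i ∈ s, f i) := by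
  classical
  induction s using Finset.induction_on with
  | empty => simpa using SF.empty
  | insert a s _ ih =>
    rw [Finset.set_biUnion_insert]
    exact (h a (by simp)).union (ih (fun i hi => h i (by simp [hi])))

theorem SF.iUnion {ι : Type} [Finite ι] {f : ι → Set (List α)} (h : ∀ i, SF (f i)) :
    SF (⋃ i, f i) := by
  classical
  cases nonempty_fintype ι
  have := SF.biUnion (Finset.univ : Finset ι) (f := f) (fun i _ => h i)
  simpa using this

theorem SF.iInter {ι : Type} [Finite ι] {f : ι → Set (List α)} (h : ∀ i, SF (f i)) :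
    SF (⋃ i, (f i)ᶜ)ᶜ := (SF.iUnion (fun i => (h i).compl)).compl

theorem SF.iInter' {ι : Type} [Finite ι] {f : ι → Set (List α)} (h : ∀ i, SF (f i)) :
    SF (⋂ i, f i) := by
  have := SF.iInter h
  simpa [Set.compl_iUnion] using this

theorem SF.congr {L M : Set (List α)} (hL : SF L) (h : L = M) : SF M := h ▸ hL

/-! ### Height one -/

theorem H1.of_sf {L : Set (List α)} (h : SF L) : H1 L := by
  obtain ⟨e, he, rfl⟩ := h
  exact ⟨e, by omega, rfl⟩

theorem H1.union {L M : Set (List α)} (hL : H1 L) (hM : H1 M) : H1 (L ∪ M) := by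
  obtain ⟨e, he, rfl⟩ := hL
  obtain ⟨f, hf, rfl⟩ := hM
  exact ⟨add e f, by simp [sh, he, hf], rfl⟩

theorem H1.conc {L M : Set (List α)} (hL : H1 L) (hM : H1 M) : H1 (conc L M) := by
  obtain ⟨e, he, rfl⟩ := hL
  obtain ⟨f, hf, rfl⟩ := hM
  exact ⟨mul e f, by simp [sh, he, hf], rfl⟩

theorem H1.compl {L : Set (List α)} (hL : H1 L) : H1 Lᶜ := by
  obtain ⟨e, he, rfl⟩ := hL
  exact ⟨GExp.compl e, by simpa [sh] using he, rfl⟩

theorem H1.inter {L M : Set (List α)} (hL : H1 L) (hM : H1 M) : H1 (L ∩ M) := by
  have := (hL.compl.union hM.compl).compl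
  simpa [Set.compl_union] using this

theorem H1.sdiff {L M : Set (List α)} (hL : H1 L) (hM : H1 M) : H1 (L \ M) :=
  hL.inter hM.compl

theorem H1.empty : H1 (∅ : Set (List α)) := H1.of_sf SF.empty
theorem H1.univ : H1 (Set.univ : Set (List α)) := H1.of_sf SF.univ

theorem H1.biUnion {ι : Type} (s : Finset ι) {f : ι → Set (List α)} (h : ∀ i ∈ s, H1 (f i)) :
    H1 (⋃ i ∈ s, f i) := by
  classical
  induction s using Finset.induction_on with
  | empty => simpa using H1.empty
  | insert a s _ ih =>
    rw [Finset.set_biUnion_insert]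
    exact (h a (by simp)).union (ih (fun i hi => h i (by simp [hi])))

theorem H1.iUnion {ι : Type} [Finite ι] {f : ι → Set (List α)} (h : ∀ i, H1 (f i)) :
    H1 (⋃ i, f i) := by
  classical
  cases nonempty_fintype ι
  have := H1.biUnion (Finset.univ : Finset ι) (f := f) (fun i _ => h i)
  simpa using this

theorem H1.iInter {ι : Type} [Finite ι] {f : ι → Set (List α)} (h : ∀ i, H1 (f i)) :
    H1 (⋂ i, f i) := by
  have := (H1.iUnion (fun i => (h i).compl)).compl
  simpa [Set.compl_iUnion] using this

/-- Star of a star-free language. -/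
def starL (L : Set (List α)) : Set (List α) :=
  {w | ∃ l : List (List α), (∀ u ∈ l, u ∈ L) ∧ w = l.flatten}

theorem H1.star_of_sf {L : Set (List α)} (h : SF L) : H1 (starL L) := by
  obtain ⟨e, he, rfl⟩ := h
  exact ⟨GExp.star e, by simp [sh, he], rfl⟩

/-! ### Measurable functions: functions into a finite type with all level sets of height one -/

/-- A function on words with all level sets of height at most one. -/
def Meas {β : Type} (f : List α → β) : Prop := ∀ b, H1 {w | f w = b}

theorem Meas.of_factor {β γ : Type} [Finite β] {f : List α → β} {g : List α → γ} (hf : Meas f)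
    (h : ∀ w w', f w = f w' → g w = g w') : Meas g := by
  classical
  intro c
  have : {w | g w = c} = ⋃ b : {b : β // ∃ w, f w = b ∧ g w = c}, {w | f w = b.1} := by
    ext w
    simp only [Set.mem_setOf_eq, Set.mem_iUnion, Subtype.exists]
    constructor
    · intro hw
      exact ⟨f w, ⟨w, rfl, hw⟩, rfl⟩
    · rintro ⟨b, ⟨w', h1, h2⟩, h3⟩
      rw [← h2]
      exact h w w' (h3.trans h1.symm)
  rw [this]
  exact H1.iUnion (fun b => hf b.1)

theorem Meas.comp {β γ : Type} {f : List α → β} (hf : Meas f) (k : β → γ) [Finite β] :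
    Meas (fun w => k (f w)) :=
  hf.of_factor (fun w w' h => by simp only [h])

theorem Meas.pair {β γ : Type} {f : List α → β} {g : List α → γ} (hf : Meas f) (hg : Meas g) :
    Meas (fun w => (f w, g w)) := by
  intro b
  have : {w | (f w, g w) = b} = {w | f w = b.1} ∩ {w | g w = b.2} := by
    ext w
    rcases b with ⟨b1, b2⟩
    simp
  rw [this]
  exact (hf _).inter (hg _)

theorem Meas.pi {ι : Type} [Finite ι] {β : ι → Type} {f : ∀ i, List α → β i}
    (hf : ∀ i, Meas (f i)) : Meas (fun w i => f i w) := by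
  intro b
  have : {w | (fun i => f i w) = b} = ⋂ i, {w | f i w = b i} := by
    ext w
    simp [funext_iff]
  rw [this]
  exact H1.iInter (fun i => hf i _)

theorem Meas.const {β : Type} (b : β) : Meas (fun _ : List α => b) := by
  classical
  intro c
  by_cases h : b = c
  · have : {w : List α | b = c} = Set.univ := by ext; simp [h]
    simp only [this]; exact H1.univ
  · have : {w : List α | b = c} = ∅ := by ext; simp [h]
    simp only [this]; exact H1.empty

end Vale.Agent.Lib.P329
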