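import Vale.Agent.Lib.P329.AperMain

namespace Vale.Agent.Lib.P329

open GExp

section center

variable {Q α : Type} (δ : Q → α → Q) (c : Q)

open Classical in
/-- A state as a point of the automaton with the center collapsed to a sink. -/
noncomputable def lft (c : Q) (q : Q) : Option {q : Q // q ≠ c} :=
  if h : q = c then none else some ⟨q, h⟩

/-- The automaton with the center collapsed to a sink. -/
noncomputable def tilde : Option {q : Q // q ≠ c} → α → Option {q : Q // q ≠ c}
  | none, _ => none
  | some q, x => lft c (δ q.1 x)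

/-- Center-aperiodicity: aperiodicity of the action away from the center. -/
def CAper : Prop := Aper (tilde δ c)

@[simp] theorem lft_self : lft c c = none := by simp [lft]

theorem lft_of_ne {q : Q} (h : q ≠ c) : lft c q = some ⟨q, h⟩ := by simp [lft, h]

@[simp] theorem lft_val (t : {q : Q // q ≠ c}) : lft c t.1 = some t := by
  rw [lft_of_ne c t.2]

theorem run_tilde_none (w : List α) : run (tilde δ c) none w = none := by
  induction w with
  | nil => rfl
  | cons x w ih => simpa [run_cons, tilde] using ih

/-- `hit q u`: the word `u` leads from `q` to the center, for the first time at its end. -/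
def hit : Q → List α → Prop
  | q, [] => q = c
  | q, x :: u => q ≠ c ∧ hit (δ q x) u

theorem run_of_hit {q : Q} {u : List α} (h : hit δ c q u) : run δ q u = c := by
  induction u generalizing q with
  | nil => exact h
  | cons x u ih => exact ih h.2

theorem hit_center {u : List α} : hit δ c c u ↔ u = [] := by
  cases u with
  | nil => simp [hit]
  | cons x u => simp [hit]

theorem run_of_tilde {q : Q} {t : {q : Q // q ≠ c}} {u : List α}
    (h : run (tilde δ c) (lft c q) u = some t) : run δ q u = t.1 := by
  induction u generalizing q with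
  | nil =>
    simp only [run_nil] at h ⊢
    by_cases hq : q = c
    · subst hq; simp at h
    · rw [lft_of_ne c hq] at h
      simp only [Option.some.injEq] at h
      rw [← h]
  | cons x u ih =>
    by_cases hq : q = c
    · subst hq
      simp only [lft_self, run_tilde_none] at h
      exact absurd h (by simp)
    · rw [lft_of_ne c hq, run_cons] at h
      exact ih h

theorem hit_iff_of_ne {q : Q} (hq : q ≠ c) (u : List α) :
    hit δ c q u ↔ ∃ u0 y, ∃ r : {q : Q // q ≠ c}, u = u0 ++ [y] ∧
      run (tilde δ c) (some ⟨q, hq⟩) u0 = some r ∧ δ r.1 y = c := by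
  constructor
  · intro h
    induction u generalizing q with
    | nil => exact absurd h hq
    | cons x u ih =>
      have h2 := h.2
      by_cases hx : δ q x = c
      · rw [hx, hit_center] at h2
        subst h2
        exact ⟨[], x, ⟨q, hq⟩, rfl, rfl, hx⟩
      · obtain ⟨u0, y, r, rfl, h3, h4⟩ := ih hx h2
        refine ⟨x :: u0, y, r, rfl, ?_, h4⟩
        rw [run_cons]
        simp only [tilde, lft_of_ne c hx]
        exact h3
  · rintro ⟨u0, y, r, rfl, h3, h4⟩
    induction u0 generalizing q with
    | nil =>
      simp only [run_nil, Option.some.injEq] at h3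
      subst h3
      refine ⟨hq, ?_⟩
      rw [h4]
      rfl
    | cons x u0 ih =>
      rw [run_cons] at h3
      simp only [tilde] at h3
      by_cases hx : δ q x = c
      · simp only [hx, lft_self, run_tilde_none] at h3
        exact absurd h3 (by simp)
      · rw [lft_of_ne c hx] at h3
        exact ⟨hq, ih hx h3⟩

variable [Finite Q] [Finite α]

theorem sf_hit (h : CAper δ c) (q : Q) : SF {u | hit δ c q u} := by
  classical
  by_cases hq : q = c
  · subst hq
    have : {u | hit δ q q u} = {[]} := by
      ext u; simp [hit_center]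
    rw [this]; exact SF.nil
  · have : {u | hit δ c q u} = ⋃ y : α, ⋃ r : {r : {q : Q // q ≠ c} // δ r.1 y = c},
        conc {u0 | run (tilde δ c) (some ⟨q, hq⟩) u0 = some r.1} {[y]} := by
      ext u
      simp only [Set.mem_ofPred_eq, hit_iff_of_ne δ c hq, Set.mem_iUnion, conc,
        Set.mem_singleton_iff]
      constructor
      · rintro ⟨u0, y, r, rfl, h3, h4⟩
        exact ⟨y, ⟨r, h4⟩, u0, h3, [y], rfl, rfl⟩
      · rintro ⟨y, ⟨r, h4⟩, u0, h3, _, rfl, rfl⟩
        exact ⟨u0, y, r, rfl, h3, h4⟩
    rw [this]
    exact SF.iUnion fun y => SF.iUnion fun r => (sf_of_aper h _ _).conc (SF.lit y)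

/-- First return words to the center. -/
def XX : Set (List α) := {w | ∃ x u, w = x :: u ∧ hit δ c (δ c x) u}

theorem sf_XX (h : CAper δ c) : SF (XX δ c) := by
  have : XX δ c = ⋃ x : α, conc {[x]} {u | hit δ c (δ c x) u} := by
    ext w
    simp only [XX, Set.mem_ofPred_eq, Set.mem_iUnion, conc, Set.mem_singleton_iff]
    constructor
    · rintro ⟨x, u, rfl, hu⟩
      exact ⟨x, [x], rfl, u, hu, rfl⟩
    · rintro ⟨x, _, rfl, u, hu, rfl⟩
      exact ⟨x, u, rfl, hu⟩
  rw [this]
  exact SF.iUnion fun x => (SF.lit x).conc (sf_hit δ c h _)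

omit [Finite Q] [Finite α] in
theorem run_of_star {v : List α} (h : v ∈ starL (XX δ c)) : run δ c v = c := by
  obtain ⟨l, hl, rfl⟩ := h
  induction l with
  | nil => rfl
  | cons u l ih =>
    rw [List.flatten_cons, run_append]
    obtain ⟨x, u', rfl, hu⟩ := hl u (by simp)
    rw [run_cons, run_of_hit δ c hu]
    exact ih (fun u hu => hl u (by simp [hu]))

omit [Finite Q] [Finite α] in
theorem to_center_iff (w : List α) (q : Q) :
    run δ q w = c ↔ w ∈ conc {u | hit δ c q u} (starL (XX δ c)) := by
  constructor
  · intro h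
    induction w generalizing q with
    | nil =>
      have : q = c := h
      subst this
      exact ⟨[], rfl, [], ⟨[], by simp, rfl⟩, rfl⟩
    | cons x w ih =>
      obtain ⟨u, hu, v, ⟨l, hl, rfl⟩, rfl⟩ := ih (δ q x) h
      by_cases hq : q = c
      · subst hq
        refine ⟨[], rfl, x :: u ++ l.flatten, ⟨(x :: u) :: l, ?_, by simp⟩, by simp⟩
        intro y hy
        rcases List.mem_cons.1 hy with rfl | hy
        · exact ⟨x, u, rfl, hu⟩
        · exact hl y hy
      · exact ⟨x :: u, ⟨hq, hu⟩, l.flatten, ⟨l, hl, rfl⟩, by simp⟩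
  · rintro ⟨u, hu, v, hv, rfl⟩
    rw [run_append, run_of_hit δ c hu]
    exact run_of_star δ c hv

/-- Words leaving the center for good, ending in a given state. -/
def YY (t : {q : Q // q ≠ c}) : Set (List α) :=
  {w | ∃ x u, w = x :: u ∧ run (tilde δ c) (lft c (δ c x)) u = some t}

theorem sf_YY (h : CAper δ c) (t : {q : Q // q ≠ c}) : SF (YY δ c t) := by
  have : YY δ c t = ⋃ x : α, conc {[x]} {u | run (tilde δ c) (lft c (δ c x)) u = some t} := by
    ext w
    simp only [YY, Set.mem_ofPred_eq, Set.mem_iUnion, conc, Set.mem_singleton_iff]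
    constructor
    · rintro ⟨x, u, rfl, hu⟩
      exact ⟨x, [x], rfl, u, hu, rfl⟩
    · rintro ⟨x, _, rfl, u, hu, rfl⟩
      exact ⟨x, u, rfl, hu⟩
  rw [this]
  exact SF.iUnion fun x => (SF.lit x).conc (sf_of_aper h _ _)

omit [Finite Q] [Finite α] in
theorem to_other_iff (t : {q : Q // q ≠ c}) (w : List α) (q : Q) :
    run δ q w = t.1 ↔ run (tilde δ c) (lft c q) w = some t ∨
      w ∈ conc (conc {u | hit δ c q u} (starL (XX δ c))) (YY δ c t) := by
  constructor
  · intro h
    induction w generalizing q with
    | nil =>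
      left
      have : q = t.1 := h
      subst this
      simp
    | cons x w ih =>
      rcases ih (δ q x) h with h1 | ⟨v, ⟨u, hu, s, hs, rfl⟩, y, hy, rfl⟩
      · by_cases hq : q = c
        · subst hq
          right
          exact ⟨[], ⟨[], rfl, [], ⟨[], by simp, rfl⟩, rfl⟩, x :: w, ⟨x, w, rfl, h1⟩, rfl⟩
        · left
          rw [lft_of_ne c hq, run_cons]
          exact h1
      · right
        by_cases hq : q = c
        · subst hq
          obtain ⟨l, hl, rfl⟩ := hs
          refine ⟨x :: u ++ l.flatten, ⟨[], rfl, x :: u ++ l.flatten,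
            ⟨(x :: u) :: l, ?_, by simp⟩, rfl⟩, y, hy, by simp⟩
          intro z hz
          rcases List.mem_cons.1 hz with rfl | hz
          · exact ⟨x, u, rfl, hu⟩
          · exact hl z hz
        · exact ⟨x :: (u ++ s), ⟨x :: u, ⟨hq, hu⟩, s, hs, rfl⟩, y, hy, by simp⟩
  · rintro (h | ⟨v, ⟨u, hu, s, hs, rfl⟩, y, ⟨x, y', rfl, hy⟩, rfl⟩)
    · exact run_of_tilde δ c h
    · rw [run_append, run_append, run_of_hit δ c hu, run_of_star δ c hs, run_cons]
      exact run_of_tilde δ c hy

/-- The main lemma: center-aperiodic automata have languages of height at most one. -/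
theorem h1_of_caper (h : CAper δ c) (s t : Q) : H1 {w | run δ s w = t} := by
  classical
  have hstar : H1 (conc {u | hit δ c s u} (starL (XX δ c))) :=
    (H1.of_sf (sf_hit δ c h s)).conc (H1.star_of_sf (sf_XX δ c h))
  by_cases ht : t = c
  · subst ht
    have : {w | run δ s w = t} = conc {u | hit δ t s u} (starL (XX δ t)) := by
      ext w
      exact to_center_iff δ t w s
    rw [this]
    exact hstar
  · have : {w | run δ s w = t} = {w | run (tilde δ c) (lft c s) w = some ⟨t, ht⟩} ∪
        conc (conc {u | hit δ c s u} (starL (XX δ c))) (YY δ c ⟨t, ht⟩) := by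
      ext w
      exact to_other_iff δ c ⟨t, ht⟩ w s
    rw [this]
    exact (H1.of_sf (sf_of_aper h _ _)).union (hstar.conc (H1.of_sf (sf_YY δ c h _)))

end center

end Vale.Agent.Lib.P329
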