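import Vale.Agent.Lib.P329.Radon

namespace Vale.Agent.Lib.P329

open Classical

section assemble

variable {G H α : Type} [Group G] [Finite G] [Group H] [Finite H] [Fintype α]

/-- The value of a word in a group. -/
def wprod (g : α → G) (w : List α) : G := (w.map g).prod

omit [Finite G] [Fintype α] in
@[simp] theorem wprod_nil (g : α → G) : wprod g [] = 1 := rfl

omit [Finite G] [Fintype α] in
@[simp] theorem wprod_snoc (g : α → G) (w : List α) (r : α) :
    wprod g (w ++ [r]) = wprod g w * g r := by
  simp [wprod]

theorem assemble (ψ : G →* H) (hs : Function.Surjective ψ)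
    (hN : ∀ x y, ψ x = 1 → ψ y = 1 → x * y = y * x)
    (g : α → G)
    (h1 : Meas (fun w => ψ (wprod g w)))
    (h2 : ∀ (y : α) (h0 : H) (M : ℕ) [NeZero M],
      Meas (fun w => ((cnt (fun x r => r = y ∧ ψ (wprod g x) = h0) w : ℕ) : ZMod M))) :
    Meas (wprod g) := by
  cases nonempty_fintype H
  have hm : NeZero (Nat.card G) := ⟨Nat.card_pos.ne'⟩
  set m := Nat.card G with hmdef
  let s : H → G := Function.surjInv hs
  have hss : ∀ h, ψ (s h) = h := Function.surjInv_eq hs
  letI instK : CommGroup ψ.ker :=
    { (inferInstance : Group ψ.ker) with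
      mul_comm := fun a b => Subtype.ext (hN _ _ (MonoidHom.mem_ker.1 a.2) (MonoidHom.mem_ker.1 b.2)) }
  let F : α × H → ψ.ker := fun i => ⟨s i.2 * g i.1 * (s (i.2 * ψ (g i.1)))⁻¹, by
    rw [MonoidHom.mem_ker, map_mul, map_mul, map_inv, hss, hss]
    group⟩
  let C : α × H → List α → ℕ := fun i w => cnt (fun x r => r = i.1 ∧ ψ (wprod g x) = i.2) w
  let P : List α → ψ.ker := fun w => ∏ i : α × H, (F i) ^ (C i w)
  have hPsnoc : ∀ w r, P (w ++ [r]) = P w * F (r, ψ (wprod g w)) := by
    intro w r
    have e1 : ∀ i, C i (w ++ [r]) = C i w + if i = (r, ψ (wprod g w)) then 1 else 0 := by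
      intro i
      simp only [C, cnt_snoc]
      congr 1
      by_cases h : i = (r, ψ (wprod g w))
      · subst h
        simp
      · have : ¬ (r = i.1 ∧ ψ (wprod g w) = i.2) := by
          rintro ⟨h3, h4⟩
          apply h
          apply Prod.ext
          · exact h3.symm
          · exact h4.symm
        simp [h, this]
    simp only [P, e1, pow_add, Finset.prod_mul_distrib]
    congr 1
    rw [Finset.prod_eq_single (r, ψ (wprod g w))]
    · simp
    · intro i _ hi
      simp [hi]
    · intro h
      exact absurd (Finset.mem_univ _) h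
  have hP : ∀ w, ((P w : ψ.ker) : G) * s (ψ (wprod g w)) = s 1 * wprod g w := by
    intro w
    induction w using List.reverseRecOn with
    | nil =>
      have : P [] = 1 := by
        simp [P, C]
      simp [this]
    | append_singleton w r ih =>
      rw [hPsnoc, wprod_snoc, map_mul]
      have : ((P w * F (r, ψ (wprod g w)) : ψ.ker) : G) =
          (P w : G) * (s (ψ (wprod g w)) * g r * (s (ψ (wprod g w) * ψ (g r)))⁻¹) := rfl
      rw [this]
      calc (P w : G) * (s (ψ (wprod g w)) * g r * (s (ψ (wprod g w) * ψ (g r)))⁻¹) *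
            s (ψ (wprod g w) * ψ (g r))
          = ((P w : G) * s (ψ (wprod g w))) * g r := by group
        _ = s 1 * (wprod g w * g r) := by rw [ih]; group
  have hsig := h1.pair (Meas.pi (fun i : α × H => h2 i.1 i.2 m))
  refine hsig.of_factor ?_
  intro w w' he
  simp only [Prod.mk.injEq, funext_iff] at he
  obtain ⟨h3, h4⟩ := he
  have hPP : P w = P w' := by
    apply Finset.prod_congr rfl
    intro i _
    have h5 : (F i) ^ m = 1 := by
      apply Subtype.ext
      show ((F i : ψ.ker) : G) ^ m = 1
      exact pow_card_eq_one'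
    have h6 : C i w % m = C i w' % m := (ZMod.natCast_eq_natCast_iff' _ _ _).1 (h4 i)
    rw [pow_eq_pow_mod _ h5, h6, ← pow_eq_pow_mod _ h5]
  have h7 := hP w
  rw [h3, hPP, hP w'] at h7
  exact (mul_left_cancel h7).symm

end assemble

section chars

theorem chars_aux (V : Type) [AddCommGroup V] [Finite V] (p : ℕ) [Fact p.Prime]
    [Module (ZMod p) V] :
    ∃ (ι : Type) (_ : Fintype ι) (χ : ι → V → ZMod p),
      (∀ i x y, χ i (x + y) = χ i x + χ i y) ∧ ∀ x y, (∀ i, χ i x = χ i y) → x = y := by
  have hinj : Function.Injective (fun (f : V →ₗ[ZMod p] ZMod p) (x : V) => f x) :=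
    fun f g h => LinearMap.ext (fun x => congrFun h x)
  have hfin : Finite (Module.Dual (ZMod p) V) := Finite.of_injective _ hinj
  refine ⟨Module.Dual (ZMod p) V, Fintype.ofFinite _, fun f x => f x, ?_, ?_⟩
  · intro f x y
    show f (x + y) = f x + f y
    rw [map_add]
  · intro x y h
    have h1 : x - y = 0 := by
      rw [← Module.forall_dual_apply_eq_zero_iff (ZMod p)]
      intro f
      rw [map_sub]
      exact sub_eq_zero.2 (h f)
    exact sub_eq_zero.1 h1

theorem exists_chars (H : Type) [CommGroup H] [Finite H] (p : ℕ) [Fact p.Prime]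
    (hexp : ∀ x : H, x ^ p = 1) :
    ∃ (ι : Type) (_ : Fintype ι) (χ : ι → H → ZMod p),
      (∀ i x y, χ i (x * y) = χ i x + χ i y) ∧ ∀ x y, (∀ i, χ i x = χ i y) → x = y := by
  letI : Module (ZMod p) (Additive H) := AddCommGroup.zmodModule (by
    intro x
    rw [← ofMul_toMul x, ← ofMul_pow, hexp]
    rfl)
  obtain ⟨ι, hι, χ, h1, h2⟩ := chars_aux (Additive H) p
  refine ⟨ι, hι, fun i x => χ i (Additive.ofMul x), ?_, ?_⟩
  · intro i x y
    show χ i (Additive.ofMul (x * y)) = χ i (Additive.ofMul x) + χ i (Additive.ofMul y)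
    rw [ofMul_mul, h1]
  · intro x y h
    exact Additive.ofMul.injective (h2 _ _ h)

end chars

section main

variable {G α : Type} [Group G] [Finite G] [Finite α]

theorem meas_group (N : Subgroup G) (hNn : N.Normal)
    (hNc : ∀ x ∈ N, ∀ y ∈ N, x * y = y * x)
    (p : ℕ) [Fact p.Prime]
    (hc : ∀ x y : G, x * y * x⁻¹ * y⁻¹ ∈ N) (hexp : ∀ x : G, x ^ p ∈ N)
    (g : α → G) : Meas (wprod g) := by
  cases nonempty_fintype α
  letI instH : CommGroup (G ⧸ N) :=
    { (QuotientGroup.Quotient.group N : Group (G ⧸ N)) with
      mul_comm := by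
        intro a b
        induction a using QuotientGroup.induction_on with
        | H x =>
          induction b using QuotientGroup.induction_on with
          | H y =>
            have h1 : ((x * y : G) : G ⧸ N) = ((y * x : G) : G ⧸ N) := by
              rw [QuotientGroup.eq]
              have := hc (y⁻¹) (x⁻¹)
              convert this using 1
              group
            simpa using h1 }
  let ψ : G →* G ⧸ N := QuotientGroup.mk' N
  have hexpH : ∀ x : G ⧸ N, x ^ p = 1 := by
    intro x
    induction x using QuotientGroup.induction_on with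
    | H x =>
      have := (QuotientGroup.eq_one_iff (N := N) (x ^ p)).2 (hexp x)
      simpa using this
  obtain ⟨ι, _, χ, hχ1, hχ2⟩ := exists_chars (G ⧸ N) p hexpH
  have hχ0 : ∀ i, χ i 1 = 0 := by
    intro i
    have := hχ1 i 1 1
    simpa using this
  let a : ι → α → ZMod p := fun i r => χ i (ψ (g r))
  have htau : ∀ i x, tau (a i) x = χ i (ψ (wprod g x)) := by
    intro i x
    induction x using List.reverseRecOn with
    | nil => simp [hχ0]
    | append_singleton x r ih =>
      rw [tau_snoc, wprod_snoc, map_mul, hχ1, ih]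
  have hker : ∀ x, ψ x = 1 → x ∈ N := fun x h => (QuotientGroup.eq_one_iff x).1 h
  refine assemble ψ (QuotientGroup.mk'_surjective N)
    (fun x y hx hy => hNc x (hker x hx) y (hker y hy)) g ?_ ?_
  · refine (Meas.pi (fun i => meas_tau (a i))).of_factor ?_
    intro w w' he
    apply hχ2
    intro i
    have := congrFun he i
    simp only [htau] at this
    exact this
  · intro y h0 M _
    let L : List ((α → ZMod p) × ZMod p) := (Finset.univ.toList).map (fun i => (a i, χ i h0))
    refine (meas_CC' y L M).congr ?_
    intro w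
    have : cnt (CC y L) w = cnt (fun x r => r = y ∧ ψ (wprod g x) = h0) w := by
      apply cnt_congr
      intro x r
      simp only [CC, L, List.mem_map, Finset.mem_toList, Finset.mem_univ, true_and,
        forall_exists_index, forall_apply_eq_imp_iff, htau]
      constructor
      · rintro ⟨h1, h2⟩
        exact ⟨h1, hχ2 _ _ h2⟩
      · rintro ⟨h1, h2⟩
        exact ⟨h1, fun i => by rw [h2]⟩
    rw [this]

end main

end Vale.Agent.Lib.P329

namespace Vale.Agent.Lib.P329

open Classical

/-- Every language recognized by a finite group having an abelian subgroup `N` containing all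
commutators and all `p`-th powers (so `N` is normal and `G/N` is an elementary abelian `p`-group)
has generalized star height at most one. -/
theorem gsh_le_one_of_abelian_by_elementary {G α : Type} [Group G] [Finite G] [Finite α]
    (N : Subgroup G) (hNc : ∀ x ∈ N, ∀ y ∈ N, x * y = y * x)
    (p : ℕ) (hp : p.Prime)
    (hc : ∀ x y : G, x * y * x⁻¹ * y⁻¹ ∈ N) (hexp : ∀ x : G, x ^ p ∈ N)
    (g : α → G) (S : Set G) :
    GenStarHeightLeOne {w : List α | (w.map g).prod ∈ S} := by
  haveI : Fact p.Prime := ⟨hp⟩
  have hNn : N.Normal := by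
    constructor
    intro n hn x
    have := N.mul_mem (hc x n) hn
    simpa using this
  have h := meas_group N hNn hNc p hc hexp g
  have : {w : List α | (w.map g).prod ∈ S} = ⋃ t : S, {w | wprod g w = t.1} := by
    ext w
    simp only [Set.mem_ofPred_eq, Set.mem_iUnion, Subtype.exists, exists_prop, wprod]
    constructor
    · intro hw
      exact ⟨_, hw, rfl⟩
    · rintro ⟨t, ht, rfl⟩
      exact ht
  rw [this]
  exact H1.iUnion (fun t => h t.1)

end Vale.Agent.Lib.P329
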