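import Vale.Agent.Lib.P329.Quad
import Vale.Agent.Lib.P329.Groups

namespace Vale.Agent.Lib.P329

open Classical
open scoped commutatorElement

section wfold

variable {α G : Type} [Group G]

/-- Ordered products over the positions of a word, on reversed words. -/
noncomputable def wfoldR (f : List α → α → G) : List α → G
  | [] => 1
  | r :: u => wfoldR f u * f u.reverse r

/-- The ordered product over the positions of a word of a function of (prefix, letter). -/
noncomputable def wfold (f : List α → α → G) (w : List α) : G := wfoldR f w.reverse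

@[simp] theorem wfold_nil (f : List α → α → G) : wfold f [] = 1 := rfl

@[simp] theorem wfold_snoc (f : List α → α → G) (w : List α) (r : α) :
    wfold f (w ++ [r]) = wfold f w * f w r := by
  simp [wfold, wfoldR]

theorem wfold_mem (N : Subgroup G) {f : List α → α → G} (hf : ∀ x r, f x r ∈ N) (w : List α) :
    wfold f w ∈ N := by
  induction w using List.reverseRecOn with
  | nil => exact N.one_mem
  | append_singleton w r ih =>
    rw [wfold_snoc]
    exact N.mul_mem ih (hf _ _)

theorem wfold_mul (N : Subgroup G) (hNc : ∀ x ∈ N, ∀ y ∈ N, x * y = y * x)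
    {f f' : List α → α → G} (hf : ∀ x r, f x r ∈ N) (hf' : ∀ x r, f' x r ∈ N) (w : List α) :
    wfold (fun x r => f x r * f' x r) w = wfold f w * wfold f' w := by
  induction w using List.reverseRecOn with
  | nil => simp
  | append_singleton w r ih =>
    simp only [wfold_snoc, ih]
    have := hNc _ (wfold_mem N hf' w) _ (hf w r)
    calc wfold f w * wfold f' w * (f w r * f' w r)
        = wfold f w * (wfold f' w * f w r) * f' w r := by group
      _ = wfold f w * (f w r * wfold f' w) * f' w r := by rw [this]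
      _ = _ := by group

theorem wfold_congr {f f' : List α → α → G} (h : ∀ x r, f x r = f' x r) (w : List α) :
    wfold f w = wfold f' w := by
  have : f = f' := by
    funext x r
    exact h x r
  rw [this]

/-- The ordered product of a function of the count vector over the positions of `y`. -/
noncomputable def IP (Ψ : (α → ℕ) → G) (y : α) (w : List α) : G :=
  wfold (fun x r => if r = y then Ψ (nv x) else 1) w

theorem IP_pow (c : G) (q : (α → ℕ) → ℕ) (y : α) (w : List α) :
    IP (fun n => c ^ q n) y w = c ^ T q y w := by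
  induction w using List.reverseRecOn with
  | nil => simp [IP]
  | append_singleton w r ih =>
    simp only [IP, wfold_snoc, T_snoc, pow_add] at ih ⊢
    rw [ih]
    by_cases h : r = y <;> simp [h]

theorem IP_one (y : α) (w : List α) : IP (fun _ => (1 : G)) y w = 1 := by
  have := IP_pow (1 : G) (fun _ => 0) y w
  simpa using this

end wfold

section sig

variable {α : Type} [Finite α]

/-- The signature of a word: letter counts and integrals of the monomials of degree at most two
in the letter counts, all modulo `M`. -/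
noncomputable def Sig (M : ℕ) (w : List α) :
    (α → ZMod M) × (α × α → ZMod M) × (α × α → ZMod M) × (α × α × α → ZMod M) :=
  (fun x => ((nv w x : ℕ) : ZMod M),
   fun i => ((T (fun n => n i.1) i.2 w : ℕ) : ZMod M),
   fun i => ((T (fun n => (n i.1).choose 2) i.2 w : ℕ) : ZMod M),
   fun i => ((T (fun n => n i.1 * n i.2.1) i.2.2 w : ℕ) : ZMod M))

theorem meas_Sig (M : ℕ) [NeZero M] : Meas (Sig (α := α) M) :=
  (Meas.pi fun x : α => meas_nv x M).pair ((Meas.pi fun i : α × α => meas_T_lin i.1 i.2 M).pair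
    ((Meas.pi fun i : α × α => meas_T_bin i.1 i.2 M).pair
      (Meas.pi fun i : α × α × α => meas_T_mul i.1 i.2.1 i.2.2 M)))

end sig

section good

variable {α G : Type} [Group G] [Finite G]

/-- The functions of the count vector with values in `N` whose product over the positions of `y`
is determined by the signature. -/
def GoodF (N : Subgroup G) (y : α) (Ψ : (α → ℕ) → G) : Prop :=
  (∀ n, Ψ n ∈ N) ∧
    ∀ w w' : List α, Sig (Nat.card G) w = Sig (Nat.card G) w' → IP Ψ y w = IP Ψ y w'

theorem pow_congr_card (c : G) {a b : ℕ}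
    (h : (a : ZMod (Nat.card G)) = (b : ZMod (Nat.card G))) : c ^ a = c ^ b := by
  have h5 : c ^ Nat.card G = 1 := pow_card_eq_one'
  have h6 : a % Nat.card G = b % Nat.card G := (ZMod.natCast_eq_natCast_iff' _ _ _).1 h
  rw [pow_eq_pow_mod _ h5, h6, ← pow_eq_pow_mod _ h5]

variable {N : Subgroup G} {y : α}

theorem GoodF.congr {Ψ Ψ' : (α → ℕ) → G} (h : GoodF N y Ψ) (e : ∀ n, Ψ n = Ψ' n) :
    GoodF N y Ψ' := by
  have : Ψ = Ψ' := funext e
  rwa [← this]

theorem GoodF.one : GoodF N y (fun _ => (1 : G)) :=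
  ⟨fun _ => N.one_mem, fun w w' _ => by rw [IP_one, IP_one]⟩

theorem GoodF.mul (hNc : ∀ x ∈ N, ∀ y ∈ N, x * y = y * x) {Ψ Ψ' : (α → ℕ) → G}
    (h : GoodF N y Ψ) (h' : GoodF N y Ψ') : GoodF N y (fun n => Ψ n * Ψ' n) := by
  refine ⟨fun n => N.mul_mem (h.1 n) (h'.1 n), fun w w' he => ?_⟩
  have hmul : ∀ w : List α, IP (fun n => Ψ n * Ψ' n) y w = IP Ψ y w * IP Ψ' y w := by
    intro w
    have hf : ∀ (Φ : (α → ℕ) → G), (∀ n, Φ n ∈ N) → ∀ (x : List α) (r : α),
        (if r = y then Φ (nv x) else 1) ∈ N := by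
      intro Φ hΦ x r
      by_cases hr : r = y
      · simp only [hr, if_true]
        exact hΦ _
      · simp only [hr, if_false]
        exact N.one_mem
    simp only [IP]
    rw [← wfold_mul N hNc (hf Ψ h.1) (hf Ψ' h'.1)]
    apply wfold_congr
    intro x r
    by_cases hr : r = y <;> simp [hr]
  rw [hmul, hmul, h.2 w w' he, h'.2 w w' he]

theorem GoodF.lin {c : G} (hc : c ∈ N) (x : α) : GoodF N y (fun n => c ^ n x) := by
  refine ⟨fun n => N.pow_mem hc _, fun w w' he => ?_⟩
  rw [IP_pow, IP_pow]
  apply pow_congr_card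
  exact congrFun (congrArg (fun s => s.2.1) he) (x, y)

theorem GoodF.bin {c : G} (hc : c ∈ N) (x : α) : GoodF N y (fun n => c ^ (n x).choose 2) := by
  refine ⟨fun n => N.pow_mem hc _, fun w w' he => ?_⟩
  rw [IP_pow, IP_pow]
  apply pow_congr_card
  exact congrFun (congrArg (fun s => s.2.2.1) he) (x, y)

theorem GoodF.prod {c : G} (hc : c ∈ N) (x x' : α) : GoodF N y (fun n => c ^ (n x * n x')) := by
  refine ⟨fun n => N.pow_mem hc _, fun w w' he => ?_⟩
  rw [IP_pow, IP_pow]
  apply pow_congr_card
  exact congrFun (congrArg (fun s => s.2.2.2) he) (x, x', y)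

end good

section calculus

variable {G : Type} [Group G]

/-- The commutator calculus of a group with an abelian subgroup `N` containing the commutators,
and a central subgroup `Z` containing the commutators with `N`. -/
structure CT (N Z : Subgroup G) : Prop where
  c_mem : ∀ u v : G, ⁅u, v⁆ ∈ N
  N_comm : ∀ x ∈ N, ∀ y ∈ N, x * y = y * x
  c_Z : ∀ u : G, ∀ z ∈ N, ⁅u, z⁆ ∈ Z
  Z_cen : ∀ t ∈ Z, ∀ u : G, t * u = u * t
  Z_le : Z ≤ N

namespace CT

variable {N Z : Subgroup G} (H : CT N Z)

include H

theorem comm_mul_left (u v z : G) (hz : z ∈ N) : ⁅u * v, z⁆ = ⁅u, z⁆ * ⁅v, z⁆ := by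
  have c := H.Z_cen _ (H.c_Z v z hz) u
  have h1 : ⁅u * v, z⁆ = ⁅v, z⁆ * ⁅u, z⁆ := by
    calc ⁅u * v, z⁆ = u * ⁅v, z⁆ * (z * u⁻¹ * z⁻¹) := by
          simp only [commutatorElement_def]; group
      _ = ⁅v, z⁆ * u * (z * u⁻¹ * z⁻¹) := by rw [c]
      _ = ⁅v, z⁆ * ⁅u, z⁆ := by
          simp only [commutatorElement_def]; group
  rw [h1]
  exact H.Z_cen _ (H.c_Z v z hz) _

theorem comm_mul_right (u z z' : G) (hz' : z' ∈ N) : ⁅u, z * z'⁆ = ⁅u, z⁆ * ⁅u, z'⁆ := by
  have c := H.Z_cen _ (H.c_Z u z' hz') (u * z * u⁻¹)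
  have h1 : ⁅u, z * z'⁆ = ⁅u, z'⁆ * ⁅u, z⁆ := by
    calc ⁅u, z * z'⁆ = (u * z * u⁻¹) * ⁅u, z'⁆ * z⁻¹ := by
          simp only [commutatorElement_def]; group
      _ = ⁅u, z'⁆ * (u * z * u⁻¹) * z⁻¹ := by rw [c]
      _ = ⁅u, z'⁆ * ⁅u, z⁆ := by
          simp only [commutatorElement_def]; group
  rw [h1]
  exact H.Z_cen _ (H.c_Z u z' hz') _

theorem comm_of_Z (u t : G) (ht : t ∈ Z) : ⁅u, t⁆ = 1 := by
  rw [commutatorElement_eq_one_iff_mul_comm]
  exact (H.Z_cen t ht u).symm

theorem comm_pow_left (u z : G) (hz : z ∈ N) (k : ℕ) : ⁅u ^ k, z⁆ = ⁅u, z⁆ ^ k := by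
  induction k with
  | zero => simp
  | succ k ih =>
    rw [pow_succ, H.comm_mul_left _ _ _ hz, ih, pow_succ]

theorem comm_pow_right (u z : G) (hz : z ∈ N) (k : ℕ) : ⁅u, z ^ k⁆ = ⁅u, z⁆ ^ k := by
  induction k with
  | zero => simp
  | succ k ih =>
    rw [pow_succ, H.comm_mul_right _ _ _ hz, ih, pow_succ]

omit H in
theorem comm_mul_eq (a v h : G) : ⁅a * v, h⁆ = ⁅a, ⁅v, h⁆⁆ * ⁅v, h⁆ * ⁅a, h⁆ := by
  simp only [commutatorElement_def]
  group

theorem comm_pow_bin (a h : G) (k : ℕ) :
    ⁅a ^ k, h⁆ = ⁅a, h⁆ ^ k * ⁅a, ⁅a, h⁆⁆ ^ k.choose 2 := by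
  have hK : ⁅a, h⁆ ∈ N := H.c_mem a h
  have ht : ∀ e : ℕ, ⁅a, ⁅a, h⁆⁆ ^ e ∈ Z := fun e => Z.pow_mem (H.c_Z a _ hK) e
  induction k with
  | zero => simp
  | succ k ih =>
    have hc : (k + 1).choose 2 = k.choose 2 + k := by
      rw [Nat.choose_succ_succ' k 1]
      simp [add_comm]
    rw [pow_succ', comm_mul_eq, ih, hc, H.comm_mul_right _ _ _ (H.Z_le (ht _)),
      H.comm_pow_right _ _ hK, H.comm_of_Z _ _ (ht _), mul_one, pow_succ', pow_add]
    set K := ⁅a, h⁆
    set t := ⁅a, K⁆
    have e1 := H.Z_cen _ (ht k) (K ^ k)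
    have e2 := H.Z_cen _ (Z.mul_mem (ht (k.choose 2)) (ht k)) K
    have e3 := H.Z_cen _ (ht k) (t ^ k.choose 2)
    calc t ^ k * (K ^ k * t ^ k.choose 2) * K
        = (t ^ k * K ^ k) * t ^ k.choose 2 * K := by group
      _ = K ^ k * (t ^ k * t ^ k.choose 2) * K := by rw [e1]; group
      _ = K ^ k * (t ^ k.choose 2 * t ^ k) * K := by rw [e3]
      _ = K ^ k * ((t ^ k.choose 2 * t ^ k) * K) := by group
      _ = K ^ k * (K * (t ^ k.choose 2 * t ^ k)) := by rw [e2]
      _ = K * K ^ k * (t ^ k.choose 2 * t ^ k) := by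
          rw [← mul_assoc, ← pow_succ, pow_succ']

/-- The commutator of an arbitrary element with a commutator of a product with a power. -/
theorem comm_comm_expand (u a v h : G) (k : ℕ) :
    ⁅u, ⁅a ^ k * v, h⁆⁆ = ⁅u, ⁅v, h⁆⁆ * ⁅u, ⁅a, h⁆⁆ ^ k := by
  have hK : ⁅a, h⁆ ∈ N := H.c_mem a h
  have hX : ⁅v, h⁆ ∈ N := H.c_mem v h
  have hs : ⁅a, ⁅a, h⁆⁆ ^ k.choose 2 ∈ Z := Z.pow_mem (H.c_Z a _ hK) _
  have hW : ⁅a ^ k, ⁅v, h⁆⁆ ∈ Z := H.c_Z _ _ hX
  rw [comm_mul_eq, H.comm_pow_bin a h k,
    H.comm_mul_right _ _ _ (N.mul_mem (N.pow_mem hK _) (H.Z_le hs)),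
    H.comm_mul_right _ _ _ hX, H.comm_of_Z _ _ hW, one_mul,
    H.comm_mul_right _ _ _ (H.Z_le hs), H.comm_of_Z _ _ hs, mul_one,
    H.comm_pow_right _ _ hK]

end CT

end calculus

section main

variable {α G : Type} [Group G]

/-- The normal form product. -/
def AL (g : α → G) (l : List α) (n : α → ℕ) : G := (l.map (fun x => g x ^ n x)).prod

@[simp] theorem AL_nil (g : α → G) (n : α → ℕ) : AL g [] n = 1 := rfl

@[simp] theorem AL_cons (g : α → G) (x : α) (l : List α) (n : α → ℕ) :
    AL g (x :: l) n = g x ^ n x * AL g l n := by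
  simp [AL]

theorem AL_append (g : α → G) (l l' : List α) (n : α → ℕ) :
    AL g (l ++ l') n = AL g l n * AL g l' n := by
  simp [AL]

theorem AL_congr (g : α → G) (l : List α) {n n' : α → ℕ} (h : ∀ x ∈ l, n x = n' x) :
    AL g l n = AL g l n' := by
  simp only [AL]
  congr 1
  exact List.map_congr_left (fun x hx => by rw [h x hx])

variable [Finite G] {N Z : Subgroup G} (H : CT N Z) (g : α → G)

include H

theorem good_a {z : G} (hz : z ∈ N) (l : List α) (x' y : α) :
    GoodF N y (fun n => ⁅AL g l n, z⁆ ^ n x') := by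
  induction l with
  | nil => exact (GoodF.one).congr (fun n => by simp)
  | cons x l ih =>
    refine ((GoodF.prod (H.Z_le (H.c_Z (g x) z hz)) x x').mul H.N_comm ih).congr ?_
    intro n
    rw [AL_cons, H.comm_mul_left _ _ _ hz, H.comm_pow_left _ _ hz]
    have hc : Commute (⁅g x, z⁆ ^ n x) ⁅AL g l n, z⁆ :=
      H.Z_cen _ (Z.pow_mem (H.c_Z _ _ hz) _) _
    rw [hc.mul_pow, pow_mul]

theorem good_b (h : G) (l' l : List α) (y : α) :
    GoodF N y (fun n => ⁅AL g l' n, ⁅AL g l n, h⁆⁆) := by
  induction l with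
  | nil => exact (GoodF.one).congr (fun n => by simp)
  | cons x l ih =>
    refine (ih.mul H.N_comm (good_a H g (H.c_mem (g x) h) l' x y)).congr ?_
    intro n
    rw [AL_cons, H.comm_comm_expand]

theorem good_c (h : G) (l : List α) (y : α) :
    GoodF N y (fun n => ⁅AL g l n, h⁆) := by
  induction l with
  | nil => exact (GoodF.one).congr (fun n => by simp)
  | cons x l ih =>
    have hK : ⁅g x, h⁆ ∈ N := H.c_mem _ _
    refine (((good_b H g h [x] l y).mul H.N_comm ih).mul H.N_comm
      ((GoodF.lin hK x).mul H.N_comm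
        (GoodF.bin (H.Z_le (H.c_Z (g x) _ hK)) x))).congr ?_
    intro n
    have e1 : AL g [x] n = g x ^ n x := by simp
    rw [e1, AL_cons, CT.comm_mul_eq, H.comm_pow_bin (g x) h (n x)]

/-- The correction term of the normal form. -/
noncomputable def FF (l : List α) (n : α → ℕ) (r : α) : G :=
  AL g l n * g r * (AL g l (fun x => n x + if r = x then 1 else 0))⁻¹

theorem good_F {l : List α} (hl : l.Nodup) {r : α} (hr : r ∈ l) :
    GoodF N r (fun n => FF g l n r) := by
  obtain ⟨l1, l2, rfl⟩ := List.append_of_mem hr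
  have hn := List.nodup_append.1 hl
  have h1 : ∀ x ∈ l1, x ≠ r := by
    intro x hx hxr
    exact hn.2.2 x hx r (by simp) hxr
  have h2 : ∀ x ∈ l2, x ≠ r := by
    intro x hx hxr
    have := (List.nodup_cons.1 hn.2.1).1
    exact this (hxr ▸ hx)
  refine ((good_b H g (g r) (l1 ++ [r]) l2 r).mul H.N_comm
    (good_c H g (g r) l2 r)).congr ?_
  intro n
  have e1 : AL g l1 (fun x => n x + if r = x then 1 else 0) = AL g l1 n :=
    AL_congr g l1 (fun x hx => by simp [(h1 x hx).symm])
  have e2 : AL g l2 (fun x => n x + if r = x then 1 else 0) = AL g l2 n :=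
    AL_congr g l2 (fun x hx => by simp [(h2 x hx).symm])
  simp only [FF, AL_append, AL_cons, AL_nil, e1, e2, mul_one, if_true]
  simp only [commutatorElement_def]
  group

omit H [Finite G] in
theorem wprod_eq (l : List α) (w : List α) :
    wprod g w = wfold (fun x r => FF g l (nv x) r) w * AL g l (nv w) := by
  induction w using List.reverseRecOn with
  | nil =>
    have : AL g l (nv []) = 1 := by
      simp only [AL, nv_nil, pow_zero]
      induction l with
      | nil => simp
      | cons a l ih => simpa using ih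
    simp [this]
  | append_singleton w r ih =>
    have e : nv (w ++ [r]) = fun x => nv w x + if r = x then 1 else 0 := by
      funext x
      exact nv_snoc w r x
    rw [wprod_snoc, ih, wfold_snoc, e]
    simp only [FF]
    group

theorem meas_CT [Finite α] : Meas (wprod g : List α → G) := by
  cases nonempty_fintype α
  have hM : NeZero (Nat.card G) := ⟨Nat.card_pos.ne'⟩
  let l : List α := Finset.univ.toList
  have hl : l.Nodup := Finset.nodup_toList _
  have hall : ∀ r, r ∈ l := fun r => Finset.mem_toList.2 (Finset.mem_univ r)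
  have hgood : ∀ r, GoodF N r (fun n => FF g l n r) := fun r => good_F H g hl (hall r)
  refine (meas_Sig (α := α) (Nat.card G)).of_factor ?_
  intro w w' he
  -- the products over a set of letters
  have hP : ∀ s : Finset α, wfold (fun x r => if r ∈ s then FF g l (nv x) r else 1) w =
      wfold (fun x r => if r ∈ s then FF g l (nv x) r else 1) w' := by
    intro s
    induction s using Finset.induction_on with
    | empty =>
      simp only [Finset.notMem_empty, if_false]
      have : ∀ u : List α, wfold (fun (_ : List α) (_ : α) => (1 : G)) u = 1 := by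
        intro u
        induction u using List.reverseRecOn with
        | nil => simp
        | append_singleton u r ih => simp [ih]
      rw [this, this]
    | insert a s ha ih =>
      have hf1 : ∀ (x : List α) (r : α), (if r = a then FF g l (nv x) r else 1) ∈ N := by
        intro x r
        by_cases h : r = a
        · subst h
          simp only [if_true]
          exact (hgood r).1 (nv x)
        · simp only [h, if_false]
          exact N.one_mem
      have hf2 : ∀ (x : List α) (r : α), (if r ∈ s then FF g l (nv x) r else 1) ∈ N := by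
        intro x r
        by_cases h : r ∈ s
        · simpa [h] using (hgood r).1 (nv x)
        · simp only [h, if_false]
          exact N.one_mem
      have e : ∀ u : List α, wfold (fun x r => if r ∈ insert a s then FF g l (nv x) r else 1) u =
          IP (fun n => FF g l n a) a u *
            wfold (fun x r => if r ∈ s then FF g l (nv x) r else 1) u := by
        intro u
        have e0 : (fun (x : List α) (r : α) => if r = a then FF g l (nv x) a else 1) =
            (fun (x : List α) (r : α) => if r = a then FF g l (nv x) r else 1) := by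
          funext x r
          by_cases h : r = a
          · simp [h]
          · simp [h]
        simp only [IP]
        rw [e0, ← wfold_mul N H.N_comm hf1 hf2]
        apply wfold_congr
        intro x r
        by_cases h : r = a
        · subst h
          simp [ha]
        · simp [h]
      rw [e, e, (hgood a).2 w w' he, ih]
  have hP1 := hP Finset.univ
  simp only [Finset.mem_univ, if_true] at hP1
  have hA : AL g l (nv w) = AL g l (nv w') := by
    simp only [AL]
    congr 1
    apply List.map_congr_left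
    intro x _
    apply pow_congr_card
    exact congrFun (congrArg (fun s => s.1) he) x
  rw [wprod_eq g l w, wprod_eq g l w', hP1, hA]

end main

section lcs

variable {G : Type} [Group G]

theorem CT_of_lcs (h : (⊤ : Subgroup G).lowerCentralSeries 3 = ⊥) :
    CT ((⊤ : Subgroup G).lowerCentralSeries 1) ((⊤ : Subgroup G).lowerCentralSeries 2) := by
  refine ⟨?_, ?_, ?_, ?_, ?_⟩
  · intro u v
    exact Subgroup.commutator_mem_commutator (Subgroup.mem_top u) (Subgroup.mem_top v)
  · intro x hx y hy
    have h2 : ⁅⁅(⊤ : Subgroup G).lowerCentralSeries 1, (⊤ : Subgroup G)⁆, (⊤ : Subgroup G)⁆ = ⊥ := h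
    have h1 : ⁅⁅(⊤ : Subgroup G), (⊤ : Subgroup G).lowerCentralSeries 1⁆, (⊤ : Subgroup G)⁆ = ⊥ := by
      rw [Subgroup.commutator_comm ⊤ ((⊤ : Subgroup G).lowerCentralSeries 1)]
      exact h2
    have h3 : ⁅⁅(⊤ : Subgroup G), (⊤ : Subgroup G)⁆, (⊤ : Subgroup G).lowerCentralSeries 1⁆ = ⊥ :=
      Subgroup.commutator_commutator_eq_bot_of_rotate h1 h2
    have h4 : ⁅x, y⁆ ∈ ⁅⁅(⊤ : Subgroup G), (⊤ : Subgroup G)⁆,
        (⊤ : Subgroup G).lowerCentralSeries 1⁆ :=
      Subgroup.commutator_mem_commutator hx hy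
    rw [h3, Subgroup.mem_bot, commutatorElement_eq_one_iff_mul_comm] at h4
    exact h4
  · intro u z hz
    have h2 : ⁅z, u⁆ ∈ (⊤ : Subgroup G).lowerCentralSeries 2 :=
      Subgroup.commutator_mem_commutator hz (Subgroup.mem_top u)
    rw [← commutatorElement_inv]
    exact Subgroup.inv_mem _ h2
  · intro t ht u
    have h2 : ⁅t, u⁆ ∈ (⊤ : Subgroup G).lowerCentralSeries 3 :=
      Subgroup.commutator_mem_commutator ht (Subgroup.mem_top u)
    rw [h, Subgroup.mem_bot, commutatorElement_eq_one_iff_mul_comm] at h2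
    exact h2
  · exact Subgroup.lowerCentralSeries_antitone _ (by norm_num)

/-- Every language recognized by a finite nilpotent group of class at most three has generalized
star height at most one. -/
theorem gsh_le_one_of_class_three {α : Type} [Finite G] [Finite α]
    (h : (⊤ : Subgroup G).lowerCentralSeries 3 = ⊥) (g : α → G) (S : Set G) :
    GenStarHeightLeOne {w : List α | (w.map g).prod ∈ S} := by
  have hm := meas_CT (CT_of_lcs h) g
  have : {w : List α | (w.map g).prod ∈ S} = ⋃ t : S, {w | wprod g w = t.1} := by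
    ext w
    simp only [Set.mem_ofPred_eq, Set.mem_iUnion, Subtype.exists, exists_prop, wprod]
    constructor
    · intro hw
      exact ⟨_, hw, rfl⟩
    · rintro ⟨t, ht, rfl⟩
      exact ht
  rw [this]
  exact H1.iUnion (fun t => hm t.1)

end lcs

end Vale.Agent.Lib.P329
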