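import Vale.Agent.Lib.P329.Rep

namespace Vale.Agent.Lib.P329

open Classical

section measlemmas

variable {α : Type}

theorem Meas.add {m : ℕ} {f g : List α → ZMod m} [NeZero m] (hf : Meas f) (hg : Meas g) :
    Meas (fun w => f w + g w) :=
  (hf.pair hg).comp (fun x => x.1 + x.2)

theorem Meas.sub {m : ℕ} {f g : List α → ZMod m} [NeZero m] (hf : Meas f) (hg : Meas g) :
    Meas (fun w => f w - g w) :=
  (hf.pair hg).comp (fun x => x.1 - x.2)

theorem Meas.finsum {m : ℕ} [NeZero m] {ι : Type} [Fintype ι] {f : ι → List α → ZMod m}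
    (hf : ∀ i, Meas (f i)) : Meas (fun w => ∑ i, f i w) :=
  (Meas.pi hf).comp (fun x => ∑ i, x i)

theorem Meas.congr {β : Type} {f g : List α → β} (hf : Meas f) (h : ∀ w, f w = g w) : Meas g := by
  have : f = g := funext h
  rwa [← this]

/-- If `p * x` is determined modulo `p * M` then `x` is determined modulo `M`. -/
theorem cast_of_mul {p M : ℕ} (hp : p ≠ 0) {x y : ℕ}
    (h : (p : ZMod (p * M)) * ((x : ZMod (p * M)) - (y : ZMod (p * M))) = 0) :
    (x : ZMod M) = (y : ZMod M) := by
  have h1 : (((p : ℤ) * ((x : ℤ) - (y : ℤ)) : ℤ) : ZMod (p * M)) = 0 := by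
    push_cast
    exact h
  rw [ZMod.intCast_zmod_eq_zero_iff_dvd] at h1
  push_cast at h1
  have h2 : (M : ℤ) ∣ (x : ℤ) - (y : ℤ) :=
    (mul_dvd_mul_iff_left (by exact_mod_cast hp)).1 h1
  have h3 : (((x : ℤ) - (y : ℤ) : ℤ) : ZMod M) = 0 :=
    (ZMod.intCast_zmod_eq_zero_iff_dvd _ _).2 h2
  push_cast at h3
  exact sub_eq_zero.1 h3

end measlemmas

section counts

variable {α : Type} [Finite α] {p : ℕ} [Fact p.Prime] (a : α → ZMod p)

instance : NeZero p := ⟨(Fact.out : p.Prime).ne_zero⟩

theorem meas_run {m : ℕ} [NeZero m] (Zs Ys Y0 : Set α) (hd : Disjoint Zs Ys) (l0 : ZMod p)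
    (b0 : Bool) : Meas (fun w => run (stp a Zs Ys Y0 (E := ZMod m)) (l0, 0, b0) w) := by
  intro t
  exact h1_of_caper _ _ (caper_stp a Zs Ys Y0 hd) _ _

theorem meas_Ev {m : ℕ} [NeZero m] (Zs Ys Y0 : Set α) (hd : Disjoint Zs Ys) (l0 : ZMod p)
    (b0 : Bool) : Meas (fun w => ((cnt (Ev a Zs Ys Y0 l0 b0) w : ℕ) : ZMod m)) := by
  refine ((meas_run a (m := m) Zs Ys Y0 hd l0 b0).comp (fun s => s.2.1)).congr ?_
  intro w
  exact (run_stp a Zs Ys Y0 l0 b0 w).2.1

theorem meas_tau : Meas (tau a : List α → ZMod p) := by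
  refine ((meas_run a (m := 1) ∅ ∅ ∅ (by simp) 0 false).comp (fun s => s.1)).congr ?_
  intro w
  have := (run_stp a (E := ZMod 1) ∅ ∅ ∅ 0 false w).1
  simpa using this

/-- The positions of the letter `y` read at clock value `l`. -/
def A (y : α) (l : ZMod p) (x : List α) (r : α) : Prop := r = y ∧ tau a x = l

omit [Finite α] in
theorem tau_zero (x : List α) : tau (fun _ : α => (0 : ZMod p)) x = 0 := by
  induction x using List.reverseRecOn with
  | nil => rfl
  | append_singleton x r ih => simp [ih]

/-- Letter counts. -/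
theorem meas_letter (y : α) (m : ℕ) [NeZero m] :
    Meas (fun w => ((cnt (fun _ r => r = y) w : ℕ) : ZMod m)) := by
  refine (meas_Ev (fun _ => (0 : ZMod 2)) (m := m) (α := α) ∅ ∅ {y} (by simp) 0 false
    |>.congr ?_)
  · intro w
    have : cnt (Ev (fun _ => (0 : ZMod 2)) (∅ : Set α) ∅ {y} 0 false) w =
        cnt (fun _ r => r = y) w := cnt_congr (fun x r => by simp [Ev, tau_zero]) w
    rw [this]

theorem meas_A_nonmoving (y : α) (hy : a y = 0) (l : ZMod p) (m : ℕ) [NeZero m] :
    Meas (fun w => ((cnt (A a y l) w : ℕ) : ZMod m)) := by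
  have h1 := meas_Ev a (m := m) (∅ : Set α) ∅ {y} (by simp) (-l) false
  have h0 := meas_Ev a (m := m) (∅ : Set α) ∅ ∅ (by simp) (-l) false
  refine (h1.sub h0).congr ?_
  intro w
  have : cnt (Ev a (∅ : Set α) ∅ {y} (-l) false) w =
      cnt (A a y l) w + cnt (Ev a (∅ : Set α) ∅ ∅ (-l) false) w := by
    apply cnt_disj
    · intro x r
      simp only [Ev, A, Set.mem_singleton_iff, Set.mem_empty_iff_false, false_and, and_false,
        false_or, not_false_eq_true, and_true]
      constructor
      · rintro (⟨_, rfl, h⟩ | h)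
        · left
          exact ⟨rfl, by linear_combination h⟩
        · right; exact h
      · rintro (⟨rfl, h⟩ | h)
        · left
          exact ⟨hy, rfl, by rw [h]; ring⟩
        · right; exact h
    · rintro x r ⟨⟨rfl, _⟩, h⟩
      simp only [Ev, Set.mem_empty_iff_false, false_and, and_false, false_or,
        not_false_eq_true, and_true] at h
      exact h.1 hy
  rw [this]
  push_cast
  ring

/-- Pairs of consecutive moving letters, the second one landing on a given clock value. -/
def Pr (Zs Ys : Set α) (b0 : Bool) (l : ZMod p) (x : List α) (r : α) : Prop :=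
  a r ≠ 0 ∧ tau a x + a r = l ∧ r ∈ Ys ∧ ((lm a x = none ∧ b0 = true) ∨ ∃ z ∈ Zs, lm a x = some z)

theorem meas_Pr (Zs Ys : Set α) (hd : Disjoint Zs Ys) (b0 : Bool) (l : ZMod p) (m : ℕ)
    [NeZero m] : Meas (fun w => ((cnt (Pr a Zs Ys b0 l) w : ℕ) : ZMod m)) := by
  have h1 := meas_Ev a (m := m) Zs Ys ∅ hd (-l) b0
  have h0 := meas_Ev a (m := m) (∅ : Set α) ∅ ∅ (by simp) (-l) b0
  refine (h0.sub h1).congr ?_
  intro w
  have : cnt (Ev a (∅ : Set α) ∅ ∅ (-l) b0) w =
      cnt (Ev a Zs Ys ∅ (-l) b0) w + cnt (Pr a Zs Ys b0 l) w := by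
    apply cnt_disj
    · intro x r
      have e1 : -l + tau a x + a r = 0 ↔ tau a x + a r = l := by
        constructor
        · intro h; linear_combination h
        · intro h; rw [← h]; ring
      simp only [Ev, Pr, Set.mem_empty_iff_false, false_and, and_false, false_or,
        not_false_eq_true, and_true, e1]
      tauto
    · rintro x r ⟨h, h'⟩
      simp only [Ev, Pr, Set.mem_empty_iff_false, false_and, and_false, false_or] at h h'
      exact h.2.2 h'.2.2
  rw [this]
  push_cast
  ring

omit [Finite α] in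
/-- The telescoping identity for a moving letter. -/
theorem telescope (y : α) (hy : a y ≠ 0) (l : ZMod p) (w : List α) :
    cnt (A a y l) w + cnt (fun x r => r = y ∧ tau a x = l + a y ∧ lm a x ≠ some y) w =
      cnt (A a y (l + a y)) w +
        cnt (fun x r => a r ≠ 0 ∧ r ≠ y ∧ tau a x = l + a y ∧ lm a x = some y) w +
        (if lm a w = some y ∧ tau a w = l + a y then 1 else 0) := by
  induction w using List.reverseRecOn with
  | nil =>
    simp
  | append_singleton w r ih =>
    simp only [cnt_snoc, A, tau_snoc, lm_snoc]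
    by_cases h0 : a r = 0
    · have hry : r ≠ y := by
        rintro rfl
        exact hy h0
      simp only [h0, hry, false_and, if_false, add_zero, ne_eq, not_true_eq_false, if_true]
      omega
    · by_cases hry : r = y
      · subst hry
        have e1 : (tau a w + a r = l + a r) ↔ tau a w = l := by
          constructor
          · intro h; linear_combination h
          · intro h; rw [h]
        simp only [h0, if_false, true_and, ne_eq, not_true_eq_false, false_and, e1,
          not_false_eq_true]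
        by_cases h1 : tau a w = l <;> by_cases h2 : tau a w = l + a r <;>
          by_cases h3 : lm a w = some r <;> simp [h1, h2, h3] at ih ⊢ <;> omega
      · have h4 : ¬ (some r = some y) := by simpa using hry
        simp only [h0, hry, false_and, if_false, ne_eq, not_false_eq_true, true_and, h4]
        by_cases h2 : tau a w = l + a y <;> by_cases h3 : lm a w = some y <;>
          simp [h2, h3] at ih ⊢ <;> omega

omit [Finite α] in
theorem sum_A (y : α) (w : List α) :
    ∑ l : ZMod p, cnt (A a y l) w = cnt (fun _ r => r = y) w := by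
  induction w using List.reverseRecOn with
  | nil => simp
  | append_singleton w r ih =>
    simp only [cnt_snoc, A, Finset.sum_add_distrib, ih]
    congr 1
    by_cases h : r = y
    · simp [h]
    · simp [h]

omit [Finite α] in
/-- Splitting a count according to the letter read. -/
theorem cnt_split [Fintype α] (P : List α → α → Prop) (w : List α) :
    cnt P w = ∑ r0 : α, cnt (fun x r => r = r0 ∧ P x r) w := by
  induction w using List.reverseRecOn with
  | nil => simp
  | append_singleton w r ih =>
    simp only [cnt_snoc, Finset.sum_add_distrib, ← ih]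
    congr 1
    by_cases h : P w r
    · simp [h]
    · simp [h]

theorem meas_E1 (y : α) (l : ZMod p) (m : ℕ) [NeZero m] (hy : a y ≠ 0) :
    Meas (fun w => ((cnt (fun x r => r = y ∧ tau a x = l + a y ∧ lm a x ≠ some y) w : ℕ) :
      ZMod m)) := by
  refine (meas_Pr a ({y}ᶜ : Set α) {y} (by simp) true (l + a y + a y) m).congr ?_
  intro w
  have : cnt (Pr a ({y}ᶜ : Set α) {y} true (l + a y + a y)) w =
      cnt (fun x r => r = y ∧ tau a x = l + a y ∧ lm a x ≠ some y) w := by
    apply cnt_congr
    intro x r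
    simp only [Pr, Set.mem_singleton_iff, Set.mem_compl_iff, and_true, ne_eq]
    constructor
    · rintro ⟨_, h1, rfl, h2⟩
      refine ⟨rfl, by linear_combination h1, ?_⟩
      rcases h2 with h2 | ⟨z, hz, h2⟩
      · simp [h2]
      · rw [h2]
        simpa using hz
    · rintro ⟨rfl, h1, h2⟩
      refine ⟨hy, by rw [h1], rfl, ?_⟩
      rcases h3 : lm a x with _ | z
      · exact Or.inl rfl
      · right
        refine ⟨z, ?_, rfl⟩
        rw [h3] at h2
        simpa using h2
  rw [this]

theorem meas_E2 (y : α) (l : ZMod p) (m : ℕ) [NeZero m] :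
    Meas (fun w => ((cnt (fun x r => a r ≠ 0 ∧ r ≠ y ∧ tau a x = l + a y ∧ lm a x = some y) w :
      ℕ) : ZMod m)) := by
  cases nonempty_fintype α
  have h1 : ∀ r0 : α, Meas (fun w => ((cnt (fun x r => r = r0 ∧
      (a r ≠ 0 ∧ r ≠ y ∧ tau a x = l + a y ∧ lm a x = some y)) w : ℕ) : ZMod m)) := by
    intro r0
    by_cases hr0 : a r0 ≠ 0 ∧ r0 ≠ y
    · refine (meas_Pr a ({y} : Set α) {r0} (by simpa using fun h => hr0.2 h.symm) false
        (l + a y + a r0) m).congr ?_
      intro w
      have : cnt (Pr a ({y} : Set α) {r0} false (l + a y + a r0)) w =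
          cnt (fun x r => r = r0 ∧
            (a r ≠ 0 ∧ r ≠ y ∧ tau a x = l + a y ∧ lm a x = some y)) w := by
        apply cnt_congr
        intro x r
        simp only [Pr, Set.mem_singleton_iff, ne_eq]
        constructor
        · rintro ⟨h0, h2, rfl, h3⟩
          refine ⟨rfl, h0, hr0.2, by linear_combination h2, ?_⟩
          rcases h3 with h3 | ⟨z, rfl, h3⟩
          · simp at h3
          · exact h3
        · rintro ⟨rfl, h0, _, h2, h3⟩
          exact ⟨h0, by rw [h2], rfl, Or.inr ⟨y, rfl, h3⟩⟩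
      rw [this]
    · have : ∀ w, ((cnt (fun x r => r = r0 ∧
          (a r ≠ 0 ∧ r ≠ y ∧ tau a x = l + a y ∧ lm a x = some y)) w : ℕ) : ZMod m) = 0 := by
        intro w
        rw [cnt_eq_zero]
        · simp
        · rintro x r ⟨rfl, h0, h2, _⟩
          exact hr0 ⟨h0, h2⟩
      refine (Meas.const (0 : ZMod m)).congr ?_
      intro w
      rw [this]
  refine (Meas.finsum h1).congr ?_
  intro w
  rw [cnt_split (fun x r => a r ≠ 0 ∧ r ≠ y ∧ tau a x = l + a y ∧ lm a x = some y) w]
  push_cast
  rfl

theorem meas_B (y : α) (l : ZMod p) (m : ℕ) [NeZero m] :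
    Meas (fun w => (((if lm a w = some y ∧ tau a w = l + a y then 1 else 0 : ℕ)) : ZMod m)) := by
  have h := meas_run a (m := 1) ({y} : Set α) ∅ ∅ (by simp) (1 - (l + a y)) false
  refine h.of_factor ?_
  intro w w' he
  have h1 := run_stp a (E := ZMod 1) ({y} : Set α) ∅ ∅ (1 - (l + a y)) false w
  have h2 := run_stp a (E := ZMod 1) ({y} : Set α) ∅ ∅ (1 - (l + a y)) false w'
  rw [he] at h1
  have key : (lm a w = some y ∧ tau a w = l + a y) ↔ (lm a w' = some y ∧ tau a w' = l + a y) := by
    have hc : tau a w = tau a w' := by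
      have := h1.1.symm.trans h2.1
      exact add_left_cancel this
    rw [← hc]
    constructor
    · rintro ⟨h3, h4⟩
      refine ⟨?_, h4⟩
      have h5 : (run (stp a ({y} : Set α) ∅ ∅ (E := ZMod 1)) (1 - (l + a y), 0, false) w').1 ≠ 0 := by
        rw [h1.1, h4]; simp
      have h6 := (h1.2.2 h5).2 (Or.inr ⟨y, rfl, h3⟩)
      rcases (h2.2.2 h5).1 h6 with ⟨_, h7⟩ | ⟨z, rfl, h7⟩
      · simp at h7
      · exact h7
    · rintro ⟨h3, h4⟩
      refine ⟨?_, h4⟩
      have h5 : (run (stp a ({y} : Set α) ∅ ∅ (E := ZMod 1)) (1 - (l + a y), 0, false) w').1 ≠ 0 := by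
        rw [h1.1, h4]; simp
      have h6 := (h2.2.2 h5).2 (Or.inr ⟨y, rfl, h3⟩)
      rcases (h1.2.2 h5).1 h6 with ⟨_, h7⟩ | ⟨z, rfl, h7⟩
      · simp at h7
      · exact h7
  simp only [key]

/-- The difference of the counts at consecutive clock values along a moving letter. -/
theorem meas_D (y : α) (hy : a y ≠ 0) (l : ZMod p) (m : ℕ) [NeZero m] :
    Meas (fun w => ((cnt (A a y l) w : ℕ) : ZMod m) - ((cnt (A a y (l + a y)) w : ℕ) : ZMod m)) := by
  refine (((meas_E2 a y l m).add (meas_B a y l m)).sub (meas_E1 a y l m hy)).congr ?_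
  intro w
  have h := congrArg (Nat.cast : ℕ → ZMod m) (telescope a y hy l w)
  push_cast at h ⊢
  linear_combination -h

theorem meas_A_moving (y : α) (hy : a y ≠ 0) (l : ZMod p) (M : ℕ) [NeZero M] :
    Meas (fun w => ((cnt (A a y l) w : ℕ) : ZMod M)) := by
  have hp : p ≠ 0 := (Fact.out : p.Prime).ne_zero
  haveI : NeZero (p * M) := ⟨mul_ne_zero hp (NeZero.ne M)⟩
  have hsig := (Meas.pi (fun l' : ZMod p => meas_D a y hy l' (p * M))).pair
    (meas_letter y (p * M))
  refine hsig.of_factor ?_
  intro w w' he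
  simp only [Prod.mk.injEq, funext_iff] at he
  obtain ⟨h1, h2⟩ := he
  set X : ZMod p → ZMod (p * M) := fun l' =>
    ((cnt (A a y l') w : ℕ) : ZMod (p * M)) - ((cnt (A a y l') w' : ℕ) : ZMod (p * M)) with hX
  have hstep : ∀ l', X (l' + a y) = X l' := by
    intro l'
    have := h1 l'
    simp only [hX]
    linear_combination -this
  have hiter : ∀ (i : ℕ) (l' : ZMod p), X (l' + i * a y) = X l' := by
    intro i
    induction i with
    | zero => intro l'; simp
    | succ i ih =>
      intro l'
      have e : l' + ((i + 1 : ℕ) : ZMod p) * a y = (l' + i * a y) + a y := by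
        push_cast; ring
      rw [e, hstep, ih]
  have hall : ∀ l', X l' = X l := by
    intro l'
    have e : l' = l + (((l' - l) / a y).val : ZMod p) * a y := by
      simp only [ZMod.natCast_val, ZMod.cast_id', id_eq]
      field_simp
      ring
    rw [e, hiter]
  have hsum : ∑ l' : ZMod p, X l' = 0 := by
    simp only [hX, Finset.sum_sub_distrib]
    have e1 := sum_A a y w
    have e2 := sum_A a y w'
    have e3 := congrArg (Nat.cast : ℕ → ZMod (p * M)) e1
    have e4 := congrArg (Nat.cast : ℕ → ZMod (p * M)) e2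
    push_cast at e3 e4
    rw [e3, e4, h2, sub_self]
  simp only [hall, Finset.sum_const, Finset.card_univ, ZMod.card, nsmul_eq_mul] at hsum
  exact cast_of_mul hp hsum

theorem meas_A (y : α) (l : ZMod p) (M : ℕ) [NeZero M] :
    Meas (fun w => ((cnt (A a y l) w : ℕ) : ZMod M)) := by
  by_cases hy : a y = 0
  · exact meas_A_nonmoving a y hy l M
  · exact meas_A_moving a y hy l M

end counts

end Vale.Agent.Lib.P329
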