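import Mathlib.Data.List.Basic
import Mathlib.Data.Set.Basic

/-!
Generalized regular expressions over an alphabet, their languages and star heights.
-/

namespace Vale.Agent.Lib.P329

/-- Generalized regular expressions: constants `0`, `1`, letters, union, concatenation,
complement (taken in the set of all words) and Kleene star. -/
inductive GExp (α : Type) : Type
  | zero : GExp α
  | one : GExp α
  | lit (a : α) : GExp α
  | add (p q : GExp α) : GExp α
  | mul (p q : GExp α) : GExp α
  | compl (p : GExp α) : GExp α
  | star (p : GExp α) : GExp α

namespace GExp

variable {α : Type}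

/-- The language denoted by a generalized regular expression. -/
def lang : GExp α → Set (List α)
  | zero => ∅
  | one => {[]}
  | lit a => {[a]}
  | add p q => {w | w ∈ lang p ∨ w ∈ lang q}
  | mul p q => {w | ∃ u ∈ lang p, ∃ v ∈ lang q, w = u ++ v}
  | compl p => {w | w ∉ lang p}
  | star p => {w | ∃ l : List (List α), (∀ u ∈ l, u ∈ lang p) ∧ w = l.flatten}

/-- The star height of a generalized regular expression. -/
def sh : GExp α → ℕ
  | zero => 0
  | one => 0
  | lit _ => 0
  | add p q => max (sh p) (sh q)
  | mul p q => max (sh p) (sh q)
  | compl p => sh p
  | star p => sh p + 1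

end GExp

/-- A language of generalized star height at most `1`. -/
def GenStarHeightLeOne {α : Type} (L : Set (List α)) : Prop :=
  ∃ e : GExp α, e.sh ≤ 1 ∧ e.lang = L

end Vale.Agent.Lib.P329
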