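import Vale.Agent.Lib.P329.Center

namespace Vale.Agent.Lib.P329

section level

variable {S Core α : Type}

theorem run_snoc {Q : Type} (δ : Q → α → Q) (s : Q) (u : List α) (x : α) :
    run δ s (u ++ [x]) = δ (run δ s u) x := by
  simp

/-- A partial automaton made total with a sink. -/
def optA (δ0 : Core → α → Option Core) : Option Core → α → Option Core
  | none, _ => none
  | some q, r => δ0 q r

theorem run_optA_none (δ0 : Core → α → Option Core) (w : List α) :
    run (optA δ0) none w = none := by
  induction w with
  | nil => rfl
  | cons x w ih => simpa [run_cons, optA] using ih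

/-- Reduction of center-aperiodicity to a level automaton, for a rank which never decreases
away from the center. -/
theorem caper_of_level (δ : S → α → S) (c : S) (π : S → Core) (ρ : S → ℕ)
    (δ0 : Core → α → Option Core)
    (H1 : ∀ s r, s ≠ c → δ s r ≠ c → ρ s ≤ ρ (δ s r))
    (H2 : ∀ s r, s ≠ c → δ s r ≠ c → ρ (δ s r) = ρ s → δ0 (π s) r = some (π (δ s r)))
    (H3 : ∀ s s', π s = π s' → ρ s = ρ s' → s = s')
    (H0 : Aper (optA δ0)) : CAper δ c := by
  have ha : ∀ (u : List α) (s s' : {q : S // q ≠ c}),
      run (tilde δ c) (some s) u = some s' →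
        ρ s.1 ≤ ρ s'.1 ∧ (ρ s'.1 = ρ s.1 → run (optA δ0) (some (π s.1)) u = some (π s'.1)) := by
    intro u
    induction u with
    | nil =>
      intro s s' h
      simp only [run_nil, Option.some.injEq] at h
      subst h
      exact ⟨le_rfl, fun _ => rfl⟩
    | cons r u ih =>
      intro s s' h
      rw [run_cons] at h
      simp only [tilde] at h
      by_cases hr : δ s.1 r = c
      · simp only [hr, lft_self, run_tilde_none] at h
        exact absurd h (by simp)
      · rw [lft_of_ne c hr] at h
        obtain ⟨h1, h2⟩ := ih _ _ h
        have h3 := H1 s.1 r s.2 hr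
        refine ⟨h3.trans h1, fun he => ?_⟩
        have h4 : ρ (δ s.1 r) = ρ s.1 := le_antisymm (by simpa [he] using h1) h3
        rw [run_cons]
        show run (optA δ0) (δ0 (π s.1) r) u = _
        rw [H2 s.1 r s.2 hr h4]
        exact h2 (by simpa [h4] using he)
  have hb : ∀ (v : List α) (j : ℕ) (s s' : {q : S // q ≠ c}),
      (fun q => run (tilde δ c) q v)^[j] (some s) = some s' →
        ρ s.1 ≤ ρ s'.1 ∧
          (ρ s'.1 = ρ s.1 → (fun q => run (optA δ0) q v)^[j] (some (π s.1)) = some (π s'.1)) := by
    intro v j
    induction j with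
    | zero =>
      intro s s' h
      simp only [Function.iterate_zero, id_eq, Option.some.injEq] at h
      subst h
      exact ⟨le_rfl, fun _ => rfl⟩
    | succ j ih =>
      intro s s' h
      rw [Function.iterate_succ_apply'] at h
      rcases h1 : (fun q => run (tilde δ c) q v)^[j] (some s) with _ | s1
      · simp only [h1, run_tilde_none] at h
        exact absurd h (by simp)
      · simp only [h1] at h
        obtain ⟨h2, h3⟩ := ih s s1 h1
        obtain ⟨h4, h5⟩ := ha v s1 s' h
        refine ⟨h2.trans h4, fun he => ?_⟩
        have h6 : ρ s1.1 = ρ s.1 := le_antisymm (by simpa [he] using h4) h2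
        rw [Function.iterate_succ_apply', h3 h6]
        exact h5 (by simpa [h6] using he)
  intro v o k hk hit
  rcases o with _ | s
  · exact run_tilde_none δ c v
  · obtain ⟨_, h2⟩ := hb v k s s hit
    have h3 := H0 v _ k hk (h2 rfl)
    obtain ⟨k', rfl⟩ : ∃ k', k = k' + 1 := ⟨k - 1, by omega⟩
    rw [Function.iterate_succ_apply] at hit
    rcases h4 : run (tilde δ c) (some s) v with _ | s1
    · simp only [h4] at hit
      have : ∀ i, (fun q => run (tilde δ c) q v)^[i] none = none := by
        intro i
        induction i with
        | zero => rfl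
        | succ i ih =>
          rw [Function.iterate_succ_apply']
          simp only [ih, run_tilde_none]
      rw [this] at hit
      exact absurd hit (by simp)
    · simp only [h4] at hit
      obtain ⟨h5, _⟩ := hb v k' s1 s hit
      obtain ⟨h6, h7⟩ := ha v s s1 h4
      have h8 := h7 (le_antisymm h5 h6)
      rw [h3] at h8
      have h9 : π s.1 = π s1.1 := by simpa using h8
      have h10 := H3 _ _ h9 (le_antisymm h6 h5)
      congr 1
      exact Subtype.ext h10.symm

end level

end Vale.Agent.Lib.P329
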