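import Vale.Agent.Lib.P329.Counts

namespace Vale.Agent.Lib.P329

open Classical

section rank

variable {S α : Type}

/-- The partial automaton keeping a state exactly when the letter fixes it. -/
noncomputable def fixA (δ : S → α → S) (s : S) (r : α) : Option S :=
  if δ s r = s then some s else none

theorem run_fixA (δ : S → α → S) (s : S) (w : List α) :
    run (optA (fixA δ)) (some s) w = some s ∨ run (optA (fixA δ)) (some s) w = none := by
  induction w using List.reverseRecOn with
  | nil => exact Or.inl rfl
  | append_singleton w r ih =>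
    rw [run_snoc]
    rcases ih with h | h
    · rw [h]
      by_cases hr : δ s r = s
      · left; simp [optA, fixA, hr]
      · right; simp [optA, fixA, hr]
    · rw [h]
      right; rfl

theorem aper_fixA (δ : S → α → S) : Aper (optA (fixA δ)) := by
  intro v o k hk hit
  rcases o with _ | s
  · exact run_optA_none _ v
  · rcases run_fixA δ s v with h | h
    · exact h
    · exfalso
      have hfix : ∀ i, (fun o => run (optA (fixA δ)) o v)^[i] none = none := by
        intro i
        induction i with
        | zero => rfl
        | succ i ih =>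
          rw [Function.iterate_succ_apply']
          simp only [ih, run_optA_none]
      obtain ⟨k', rfl⟩ : ∃ k', k = k' + 1 := ⟨k - 1, by omega⟩
      rw [Function.iterate_succ_apply] at hit
      simp only [h] at hit
      rw [hfix] at hit
      exact absurd hit (by simp)

/-- A rank strictly increasing along all nontrivial moves away from the center gives
center-aperiodicity. -/
theorem caper_of_rank (δ : S → α → S) (c : S) (ρ : S → ℕ)
    (h : ∀ s r, s ≠ c → δ s r ≠ c → δ s r ≠ s → ρ s < ρ (δ s r)) : CAper δ c := by
  refine caper_of_level δ c id ρ (fixA δ) ?_ ?_ ?_ (aper_fixA δ)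
  · intro s r hs hr
    by_cases he : δ s r = s
    · rw [he]
    · exact (h s r hs hr he).le
  · intro s r hs hr he
    by_cases he' : δ s r = s
    · simp [fixA, he']
    · have := h s r hs hr he'
      omega
  · intro s s' h1 _
    exact h1

end rank

section odo

variable {α : Type} {q m : ℕ} [NeZero q] [NeZero m] (L Y0 : Set α)

/-- The odometer: letters of `L` tick a clock modulo `q`, the carry ticks a counter; the letters
of `Y0` tick the counter when the clock is zero. -/
noncomputable def odo (s : ZMod q × ZMod m) (r : α) : ZMod q × ZMod m :=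
  if r ∈ L then (if s.1 + 1 = 0 then (0, s.2 + 1) else (s.1 + 1, s.2))
  else if r ∈ Y0 ∧ s.1 = 0 then (0, s.2 + 1) else s

theorem caper_odo : CAper (odo (q := q) (m := m) L Y0) (0, 0) := by
  refine caper_of_rank _ _ (fun s => q * s.2.val + s.1.val) ?_
  rintro ⟨l, e⟩ r _ hr hne
  have hl : l.val < q := ZMod.val_lt l
  have key : ((0 : ZMod q), e + 1) ≠ ((0, 0) : ZMod q × ZMod m) →
      q * e.val + l.val < q * (e + 1).val + (0 : ZMod q).val := by
    intro h
    have h1 : (e + 1).val = e.val + 1 := by
      rcases val_succ e with h2 | h2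
      · rw [h2] at h
        exact absurd rfl h
      · exact h2
    rw [h1, mul_add, ZMod.val_zero]
    omega
  by_cases hL : r ∈ L
  · by_cases h0 : l + 1 = 0
    · simp only [odo, hL, if_true, h0] at hr ⊢
      exact key hr
    · simp only [odo, hL, if_true, h0, if_false] at hr ⊢
      rcases val_succ l with h2 | h2
      · exact absurd h2 h0
      · rw [h2]
        omega
  · by_cases hY : r ∈ Y0 ∧ l = 0
    · obtain ⟨hY1, rfl⟩ := hY
      simp only [odo, hL, if_false, hY1, and_self, if_true] at hr ⊢
      exact key hr
    · simp only [odo, hL, if_false, hY] at hne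
      exact absurd rfl hne

/-- The number of letters of `L` in a word. -/
noncomputable def nL (L : Set α) (x : List α) : ℕ := cnt (fun _ r => r ∈ L) x

@[simp] theorem nL_nil : nL L [] = 0 := by simp [nL]

@[simp] theorem nL_snoc (x : List α) (r : α) :
    nL L (x ++ [r]) = nL L x + if r ∈ L then 1 else 0 := by
  simp [nL]

/-- The event counted by the counter of the odometer. -/
def OEv (l0 : ZMod q) (x : List α) (r : α) : Prop :=
  (r ∈ L ∧ l0 + (nL L x : ZMod q) + 1 = 0) ∨ (r ∉ L ∧ r ∈ Y0 ∧ l0 + (nL L x : ZMod q) = 0)

theorem run_odo (l0 : ZMod q) (w : List α) :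
    (run (odo (q := q) (m := m) L Y0) (l0, 0) w).1 = l0 + (nL L w : ZMod q) ∧
    (run (odo (q := q) (m := m) L Y0) (l0, 0) w).2 = (cnt (OEv L Y0 l0) w : ZMod m) := by
  induction w using List.reverseRecOn with
  | nil => simp
  | append_singleton w r ih =>
    obtain ⟨h1, h2⟩ := ih
    rw [run_snoc]
    rcases hs : run (odo (q := q) (m := m) L Y0) (l0, 0) w with ⟨l, e⟩
    rw [hs] at h1 h2
    simp only at h1 h2
    subst h1
    subst h2
    simp only [nL_snoc, cnt_snoc, OEv]
    by_cases hL : r ∈ L
    · by_cases h0 : l0 + (nL L w : ZMod q) + 1 = 0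
      · simp [odo, hL, h0, ← add_assoc]
      · simp [odo, hL, h0, ← add_assoc]
    · by_cases hY : r ∈ Y0 ∧ l0 + (nL L w : ZMod q) = 0
      · simp [odo, hL, hY]
      · have hY' : ¬ (r ∈ Y0 ∧ l0 + (nL L w : ZMod q) = 0) := hY
        simp [odo, hL, hY']

variable [Finite α]

theorem meas_OEv (l0 : ZMod q) : Meas (fun w => ((cnt (OEv (q := q) L Y0 l0) w : ℕ) : ZMod m)) := by
  have h : Meas (fun w => run (odo (q := q) (m := m) L Y0) (l0, 0) w) := by
    intro t
    exact h1_of_caper _ _ (caper_odo L Y0) _ _
  refine (h.comp (fun s => s.2)).congr ?_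
  intro w
  exact (run_odo L Y0 l0 w).2

/-- Counting a letter outside `L` at a given clock value. -/
theorem meas_odo_count (y : α) (hy : y ∉ L) (l : ZMod q) :
    Meas (fun w => ((cnt (fun x r => r = y ∧ (nL L x : ZMod q) = l) w : ℕ) : ZMod m)) := by
  have h1 := meas_OEv (m := m) L {y} (-l)
  have h0 := meas_OEv (m := m) L ∅ (-l)
  refine (h1.sub h0).congr ?_
  intro w
  have : cnt (OEv L {y} (-l)) w =
      cnt (fun x r => r = y ∧ (nL L x : ZMod q) = l) w + cnt (OEv L ∅ (-l)) w := by
    apply cnt_disj
    · intro x r
      simp only [OEv, Set.mem_singleton_iff, Set.mem_empty_iff_false, false_and, and_false,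
        or_false]
      constructor
      · rintro (h | ⟨_, rfl, h⟩)
        · right; exact h
        · left
          exact ⟨rfl, by linear_combination h⟩
      · rintro (⟨rfl, h⟩ | h)
        · right
          exact ⟨hy, rfl, by rw [h]; ring⟩
        · left; exact h
    · rintro x r ⟨⟨rfl, _⟩, h⟩
      simp only [OEv, Set.mem_empty_iff_false, false_and, and_false, or_false] at h
      exact hy h.1
  rw [this]
  push_cast
  ring

end odo

end Vale.Agent.Lib.P329
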