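import Vale.Agent.Lib.P329.Level

namespace Vale.Agent.Lib.P329

open Classical

section clock

variable {α : Type} {p : ℕ} [Fact p.Prime] (a : α → ZMod p)

/-- The clock of a word: the sum of the weights of its letters. -/
def tau (w : List α) : ZMod p := (w.map a).sum

@[simp] theorem tau_nil : tau a [] = 0 := rfl
@[simp] theorem tau_snoc (w : List α) (r : α) : tau a (w ++ [r]) = tau a w + a r := by
  simp [tau]

/-- The last letter of nonzero weight of a word. -/
noncomputable def lm (w : List α) : Option α :=
  run (fun μ r => if a r = 0 then μ else some r) none w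

@[simp] theorem lm_nil : lm a [] = none := rfl
theorem lm_snoc (w : List α) (r : α) :
    lm a (w ++ [r]) = if a r = 0 then lm a w else some r := by
  simp [lm]

theorem lm_mem {w : List α} {r : α} (h : lm a w = some r) : r ∈ w ∧ a r ≠ 0 := by
  induction w using List.reverseRecOn with
  | nil => simp at h
  | append_singleton w x ih =>
    rw [lm_snoc] at h
    by_cases hx : a x = 0
    · simp only [hx, if_true] at h
      obtain ⟨h1, h2⟩ := ih h
      exact ⟨by simp [h1], h2⟩
    · simp only [hx, if_false, Option.some.injEq] at h
      subst h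
      exact ⟨by simp, hx⟩

theorem tau_of_lm_none {w : List α} (h : lm a w = none) : tau a w = 0 := by
  induction w using List.reverseRecOn with
  | nil => rfl
  | append_singleton w x ih =>
    rw [lm_snoc] at h
    by_cases hx : a x = 0
    · simp only [hx, if_true] at h
      simp [ih h, hx]
    · simp [hx] at h

variable (Zs Ys Y0 : Set α)

/-- The level automaton of the clock representation. -/
noncomputable def lev (q : ZMod p × Bool) (r : α) : Option (ZMod p × Bool) :=
  if a r = 0 then (if r ∈ Y0 ∧ q.1 = 0 then none else some q)
  else if q.1 + a r = 0 then (if q.2 = true ∧ r ∈ Ys then some (0, false) else none)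
  else some (q.1 + a r, decide (r ∈ Zs))

theorem lev_run_snoc (q : ZMod p × Bool) (u : List α) (x : α) :
    run (optA (lev a Zs Ys Y0)) (some q) (u ++ [x]) =
      optA (lev a Zs Ys Y0) (run (optA (lev a Zs Ys Y0)) (some q) u) x := by
  simp

theorem lev_clock {q q' : ZMod p × Bool} {u : List α}
    (h : run (optA (lev a Zs Ys Y0)) (some q) u = some q') : q'.1 = q.1 + tau a u := by
  induction u using List.reverseRecOn generalizing q' with
  | nil =>
    simp only [run_nil, Option.some.injEq] at h
    simp [← h]
  | append_singleton u x ih =>
    rw [lev_run_snoc] at h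
    rcases h1 : run (optA (lev a Zs Ys Y0)) (some q) u with _ | q1
    · simp [h1, optA] at h
    · simp only [h1, optA, lev] at h
      have h2 := ih h1
      rw [tau_snoc, ← add_assoc, ← h2]
      by_cases hx : a x = 0
      · simp only [hx, if_true] at h
        by_cases hy : x ∈ Y0 ∧ q1.1 = 0
        · simp [hy] at h
        · simp only [hy, if_false, Option.some.injEq] at h
          simp [← h, hx]
      · simp only [hx, if_false] at h
        by_cases hz : q1.1 + a x = 0
        · simp only [hz, if_true] at h
          by_cases hw : q1.2 = true ∧ x ∈ Ys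
          · simp only [hw, and_self, if_true, Option.some.injEq] at h
            simp [← h, hz]
          · simp [hw] at h
        · simp only [hz, if_false, Option.some.injEq] at h
          simp [← h]

theorem lev_memory {q q' : ZMod p × Bool} {u : List α}
    (h : run (optA (lev a Zs Ys Y0)) (some q) u = some q') :
    (lm a u = none → q' = q) ∧
      ∀ r, lm a u = some r → q'.2 = if q'.1 = 0 then false else decide (r ∈ Zs) := by
  induction u using List.reverseRecOn generalizing q' with
  | nil =>
    simp only [run_nil, Option.some.injEq] at h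
    simp [← h]
  | append_singleton u x ih =>
    rw [lev_run_snoc] at h
    rcases h1 : run (optA (lev a Zs Ys Y0)) (some q) u with _ | q1
    · simp [h1, optA] at h
    · simp only [h1, optA, lev] at h
      obtain ⟨h2, h3⟩ := ih h1
      rw [lm_snoc]
      by_cases hx : a x = 0
      · simp only [hx, if_true] at h ⊢
        by_cases hy : x ∈ Y0 ∧ q1.1 = 0
        · simp [hy] at h
        · simp only [hy, if_false, Option.some.injEq] at h
          subst h
          exact ⟨h2, h3⟩
      · simp only [hx, if_false] at h ⊢
        by_cases hz : q1.1 + a x = 0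
        · simp only [hz, if_true] at h
          by_cases hw : q1.2 = true ∧ x ∈ Ys
          · simp only [hw, and_self, if_true, Option.some.injEq] at h
            subst h
            simp
          · simp [hw] at h
        · simp only [hz, if_false, Option.some.injEq] at h
          subst h
          simp [hz]

theorem lev_iter_none (v : List α) (i : ℕ) :
    (fun o => run (optA (lev a Zs Ys Y0)) o v)^[i] none = none := by
  induction i with
  | zero => rfl
  | succ i ih =>
    rw [Function.iterate_succ_apply']
    simp only [ih, run_optA_none]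

theorem lev_iter_ne_none {v : List α} {q : ZMod p × Bool} {k : ℕ} (hk : 0 < k)
    (hit : (fun o => run (optA (lev a Zs Ys Y0)) o v)^[k] (some q) = some q) (j : ℕ) :
    (fun o => run (optA (lev a Zs Ys Y0)) o v)^[j] (some q) ≠ none := by
  intro h
  have h1 : (fun o => run (optA (lev a Zs Ys Y0)) o v)^[k * (j + 1)] (some q) = some q := by
    rw [Function.iterate_mul]
    exact Function.iterate_fixed hit _
  have h2 : k * (j + 1) = (k * (j + 1) - j) + j := by
    have : j + 1 ≤ k * (j + 1) := Nat.le_mul_of_pos_left _ hk
    omega
  rw [h2, Function.iterate_add_apply, h, lev_iter_none] at h1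
  exact absurd h1 (by simp)

theorem lev_iter_clock {v : List α} {q q' : ZMod p × Bool} {j : ℕ}
    (h : (fun o => run (optA (lev a Zs Ys Y0)) o v)^[j] (some q) = some q') :
    q'.1 = q.1 + j * tau a v := by
  induction j generalizing q' with
  | zero =>
    simp only [Function.iterate_zero, id_eq, Option.some.injEq] at h
    simp [← h]
  | succ j ih =>
    rw [Function.iterate_succ_apply'] at h
    rcases h1 : (fun o => run (optA (lev a Zs Ys Y0)) o v)^[j] (some q) with _ | q1
    · simp [h1, run_optA_none] at h
    · simp only [h1] at h
      rw [lev_clock a Zs Ys Y0 h, ih h1]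
      push_cast
      ring

/-- Aperiodicity of the level automaton. -/
theorem aper_lev (hd : Disjoint Zs Ys) : Aper (optA (lev a Zs Ys Y0)) := by
  intro v o k hk hit
  rcases o with _ | q
  · exact run_optA_none _ v
  have hne := lev_iter_ne_none a Zs Ys Y0 hk hit
  -- the state before the last pass
  obtain ⟨k', rfl⟩ : ∃ k', k = k' + 1 := ⟨k - 1, by omega⟩
  have hF : ∀ j, ∃ q', (fun o => run (optA (lev a Zs Ys Y0)) o v)^[j] (some q) = some q' := by
    intro j
    exact Option.ne_none_iff_exists'.1 (hne j)
  obtain ⟨q1, hq1⟩ := hF 1
  simp only [Function.iterate_one] at hq1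
  by_cases ht : tau a v = 0
  · -- the word does not move the clock
    have hc1 : q1.1 = q.1 := by
      rw [lev_clock a Zs Ys Y0 hq1, ht, add_zero]
    rcases hl : lm a v with _ | r
    · rw [hq1, (lev_memory a Zs Ys Y0 hq1).1 hl]
    · obtain ⟨q2, hq2⟩ := hF k'
      have hit' := hit
      rw [Function.iterate_succ_apply', hq2] at hit'
      have hc2 : q2.1 = q.1 := by
        rw [lev_iter_clock a Zs Ys Y0 hq2, ht]; simp
      have h3 := (lev_memory a Zs Ys Y0 hit').2 r hl
      have h4 := (lev_memory a Zs Ys Y0 hq1).2 r hl
      rw [hq1]
      congr 1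
      apply Prod.ext hc1
      rw [h3, h4, hc1]
  · -- the word moves the clock: impossible
    exfalso
    -- every moving letter of the word is a return for a suitable pass
    have key : ∀ (v1 v2 : List α) (r : α), v = v1 ++ r :: v2 → a r ≠ 0 →
        ∃ j, 0 < j ∧ ∃ q' q'', (fun o => run (optA (lev a Zs Ys Y0)) o v)^[j] (some q) = some q' ∧
          run (optA (lev a Zs Ys Y0)) (some q') v1 = some q'' ∧ q''.2 = true ∧ r ∈ Ys := by
      intro v1 v2 r hv hr
      set x : ZMod p := (- a r - tau a v1 - q.1) / tau a v with hx
      refine ⟨x.val + p, by have := (Fact.out : p.Prime).pos; omega, ?_⟩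
      obtain ⟨q', hq'⟩ := hF (x.val + p)
      have hq'c := lev_iter_clock a Zs Ys Y0 hq'
      have hcast : ((x.val + p : ℕ) : ZMod p) = x := by
        simp
      rw [hcast] at hq'c
      have hnext : (fun o => run (optA (lev a Zs Ys Y0)) o v)^[x.val + p + 1] (some q) ≠ none :=
        hne _
      rw [Function.iterate_succ_apply', hq'] at hnext
      replace hnext : run (optA (lev a Zs Ys Y0)) (some q') v ≠ none := hnext
      rw [hv, run_append, run_cons] at hnext
      rcases h1 : run (optA (lev a Zs Ys Y0)) (some q') v1 with _ | q''
      · simp [h1, optA, run_optA_none] at hnext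
      · rw [h1] at hnext
        have hc := lev_clock a Zs Ys Y0 h1
        have hret : q''.1 + a r = 0 := by
          rw [hc, hq'c, hx]
          field_simp
          ring
        have h2 : lev a Zs Ys Y0 q'' r ≠ none := by
          intro h3
          apply hnext
          show run (optA (lev a Zs Ys Y0)) (lev a Zs Ys Y0 q'' r) v2 = none
          rw [h3]
          exact run_optA_none _ v2
        simp only [lev, hr, if_false, hret, if_true] at h2
        by_cases hw : q''.2 = true ∧ r ∈ Ys
        · exact ⟨q', q'', hq', h1, hw.1, hw.2⟩
        · simp [hw] at h2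
    have hall : ∀ r ∈ v, a r ≠ 0 → r ∈ Ys := by
      intro r hr hr0
      obtain ⟨v1, v2, hv⟩ := List.append_of_mem hr
      obtain ⟨_, _, _, _, _, _, _, h⟩ := key v1 v2 r hv hr0
      exact h
    have hnz : ∀ r ∈ v, a r ≠ 0 → r ∉ Zs := by
      intro r hr hr0 hz
      exact (Set.disjoint_left.1 hd) hz (hall r hr hr0)
    rcases hl : lm a v with _ | r
    · exact ht (tau_of_lm_none a hl)
    · obtain ⟨hrv, hr0⟩ := lm_mem a hl
      obtain ⟨v1, v2, hv⟩ := List.append_of_mem hrv
      obtain ⟨j, hj, q', q'', h1, h2, h3, _⟩ := key v1 v2 r hv hr0
      -- the memory after a full pass is false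
      obtain ⟨j', rfl⟩ : ∃ j', j = j' + 1 := ⟨j - 1, by omega⟩
      rw [Function.iterate_succ_apply'] at h1
      obtain ⟨q3, hq3⟩ := hF j'
      rw [hq3] at h1
      have h4 := (lev_memory a Zs Ys Y0 h1).2 r hl
      have h5 : q'.2 = false := by
        rw [h4]
        have := hnz r hrv hr0
        simp [this]
      have hmem := lev_memory a Zs Ys Y0 h2
      rcases hl1 : lm a v1 with _ | r1
      · rw [hmem.1 hl1, h5] at h3
        exact absurd h3 (by simp)
      · obtain ⟨hr1, hr10⟩ := lm_mem a hl1
        have h6 := hmem.2 r1 hl1
        have hr1v : r1 ∈ v := by rw [hv]; simp [hr1]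
        have := hnz r1 hr1v hr10
        rw [h3] at h6
        simp [this] at h6

end clock

end Vale.Agent.Lib.P329
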