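import Vale.Agent.Lib.P329.Odometer

namespace Vale.Agent.Lib.P329

open Classical

section wsum

variable {α : Type}

/-- The vector of letter counts of a word. -/
noncomputable def nv (w : List α) (x : α) : ℕ := cnt (fun _ r => r = x) w

@[simp] theorem nv_nil (x : α) : nv [] x = 0 := rfl

@[simp] theorem nv_snoc (w : List α) (r x : α) :
    nv (w ++ [r]) x = nv w x + if r = x then 1 else 0 := by
  simp [nv]

/-- Weighted sums over the positions of a word, on reversed words. -/
noncomputable def wsumR (f : List α → α → ℕ) : List α → ℕ
  | [] => 0
  | r :: u => wsumR f u + f u.reverse r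

/-- The sum over the positions of a word of a function of (prefix, letter). -/
noncomputable def wsum (f : List α → α → ℕ) (w : List α) : ℕ := wsumR f w.reverse

@[simp] theorem wsum_nil (f : List α → α → ℕ) : wsum f [] = 0 := rfl

@[simp] theorem wsum_snoc (f : List α → α → ℕ) (w : List α) (r : α) :
    wsum f (w ++ [r]) = wsum f w + f w r := by
  simp [wsum, wsumR]

/-- The discrete integral of a function of the count vector over the positions of `y`. -/
noncomputable def T (q : (α → ℕ) → ℕ) (y : α) (w : List α) : ℕ :=
  wsum (fun x r => if r = y then q (nv x) else 0) w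

@[simp] theorem T_nil (q : (α → ℕ) → ℕ) (y : α) : T q y [] = 0 := rfl

@[simp] theorem T_snoc (q : (α → ℕ) → ℕ) (y : α) (w : List α) (r : α) :
    T q y (w ++ [r]) = T q y w + if r = y then q (nv w) else 0 := by
  simp [T]

theorem T_add (q q' : (α → ℕ) → ℕ) (y : α) (w : List α) :
    T (fun n => q n + q' n) y w = T q y w + T q' y w := by
  induction w using List.reverseRecOn with
  | nil => simp
  | append_singleton w r ih =>
    simp only [T_snoc, ih]
    by_cases h : r = y
    · simp [h]; ring
    · simp [h]

theorem T_const_mul (c : ℕ) (q : (α → ℕ) → ℕ) (y : α) (w : List α) :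
    T (fun n => c * q n) y w = c * T q y w := by
  induction w using List.reverseRecOn with
  | nil => simp
  | append_singleton w r ih =>
    simp only [T_snoc, ih]
    by_cases h : r = y
    · simp [h]; ring
    · simp [h]

theorem T_congr {q q' : (α → ℕ) → ℕ} (h : ∀ n, q n = q' n) (y : α) (w : List α) :
    T q y w = T q' y w := by
  have : q = q' := funext h
  rw [this]

end wsum

section binom

theorem two_mul_choose {R : Type} [CommRing R] (a : ℕ) :
    (2 : R) * ((a.choose 2 : ℕ) : R) = a * (a - 1) := by
  induction a with
  | zero => simp
  | succ a ih =>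
    have : (a + 1).choose 2 = a.choose 2 + a := by
      rw [Nat.choose_succ_succ' a 1]
      simp [add_comm]
    rw [this]
    push_cast
    linear_combination ih

theorem six_mul_choose {R : Type} [CommRing R] (a : ℕ) :
    (6 : R) * ((a.choose 3 : ℕ) : R) = a * (a - 1) * (a - 2) := by
  induction a with
  | zero => simp
  | succ a ih =>
    have : (a + 1).choose 3 = a.choose 3 + a.choose 2 := by
      rw [Nat.choose_succ_succ' a 2]
      simp [add_comm]
    rw [this]
    push_cast
    have h2 := two_mul_choose (R := R) a
    linear_combination ih + 3 * h2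

theorem choose2_per (m : ℕ) (a b : ℕ) (h : (a : ZMod (2 * m)) = (b : ZMod (2 * m))) :
    ((a.choose 2 : ℕ) : ZMod m) = ((b.choose 2 : ℕ) : ZMod m) := by
  apply cast_of_mul (p := 2) (by norm_num)
  push_cast
  have h1 := two_mul_choose (R := ZMod (2 * m)) a
  have h2 := two_mul_choose (R := ZMod (2 * m)) b
  rw [mul_sub, h1, h2, h]
  ring

theorem choose3_per (m : ℕ) (a b : ℕ) (h : (a : ZMod (6 * m)) = (b : ZMod (6 * m))) :
    ((a.choose 3 : ℕ) : ZMod m) = ((b.choose 3 : ℕ) : ZMod m) := by
  apply cast_of_mul (p := 6) (by norm_num)
  push_cast
  have h1 := six_mul_choose (R := ZMod (6 * m)) a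
  have h2 := six_mul_choose (R := ZMod (6 * m)) b
  rw [mul_sub, h1, h2, h]
  ring

theorem choose2_add (a b : ℕ) : (a + b).choose 2 = a.choose 2 + b.choose 2 + a * b := by
  induction b with
  | zero => simp
  | succ b ih =>
    have h1 : (a + (b + 1)).choose 2 = (a + b).choose 2 + (a + b) := by
      rw [← add_assoc, Nat.choose_succ_succ' (a + b) 1]
      simp [add_comm]
    have h2 : (b + 1).choose 2 = b.choose 2 + b := by
      rw [Nat.choose_succ_succ' b 1]
      simp [add_comm]
    rw [h1, h2, ih]
    ring

end binom

section meas

variable {α : Type} [Finite α]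

theorem Meas.of_periodic {q : ℕ} [NeZero q] {f : List α → ℕ} (hf : Meas (fun w => ((f w : ℕ) : ZMod q)))
    {β : Type} (k : ℕ → β)
    (hper : ∀ a b : ℕ, (a : ZMod q) = (b : ZMod q) → k a = k b) :
    Meas (fun w => k (f w)) := by
  refine (hf.comp (fun c => k c.val)).congr ?_
  intro w
  apply hper
  simp

/-- Odometer integrals of periodic functions of the number of letters of a set not containing
the letter integrated over. -/
theorem meas_sum_odo {q m : ℕ} [NeZero q] [NeZero m] (L : Set α) (y : α) (hy : y ∉ L)
    (k : ℕ → ℕ) (hper : ∀ a b : ℕ, (a : ZMod q) = (b : ZMod q) →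
      ((k a : ℕ) : ZMod m) = ((k b : ℕ) : ZMod m)) :
    Meas (fun w => ((wsum (fun x r => if r = y then k (nL L x) else 0) w : ℕ) : ZMod m)) := by
  have key : ∀ w : List α, ((wsum (fun x r => if r = y then k (nL L x) else 0) w : ℕ) : ZMod m) =
      ∑ l : ZMod q, ((k l.val : ℕ) : ZMod m) *
        ((cnt (fun x r => r = y ∧ (nL L x : ZMod q) = l) w : ℕ) : ZMod m) := by
    intro w
    induction w using List.reverseRecOn with
    | nil => simp
    | append_singleton w r ih =>
      simp only [wsum_snoc, cnt_snoc]
      push_cast
      rw [ih]
      simp only [mul_add, Finset.sum_add_distrib]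
      congr 1
      by_cases hr : r = y
      · subst hr
        rw [Finset.sum_eq_single ((nL L w : ℕ) : ZMod q)]
        · simp only [if_true, true_and]
          rw [hper (((nL L w : ℕ) : ZMod q)).val (nL L w) (by simp)]
          simp
        · intro l _ hl
          have : ¬ (((nL L w : ℕ) : ZMod q) = l) := fun h => hl h.symm
          simp [this]
        · intro h
          exact absurd (Finset.mem_univ _) h
      · simp [hr]
  refine (Meas.finsum (fun l : ZMod q => ((meas_odo_count (m := m) L y hy l).comp
    (fun c => ((k l.val : ℕ) : ZMod m) * c)))).congr ?_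
  intro w
  rw [key w]

theorem nL_singleton (x : α) (z : List α) : nL {x} z = nv z x :=
  cnt_congr (fun _ _ => by simp) z

theorem nL_pair (x x' : α) (hx : x ≠ x') (z : List α) : nL {x, x'} z = nv z x + nv z x' := by
  apply cnt_disj
  · intro _ r
    simp
  · intro _ r
    rintro ⟨rfl, rfl⟩
    exact hx rfl

theorem meas_nv (x : α) (m : ℕ) [NeZero m] : Meas (fun w => ((nv w x : ℕ) : ZMod m)) :=
  meas_letter x m

theorem meas_T_choose_self_one (y : α) (m : ℕ) [NeZero m] :
    Meas (fun w : List α => ((T (fun n => n y) y w : ℕ) : ZMod m)) := by
  have e : ∀ w : List α, T (fun n => n y) y w = (nv w y).choose 2 := by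
    intro w
    induction w using List.reverseRecOn with
    | nil => simp
    | append_singleton w r ih =>
      simp only [T_snoc, nv_snoc, ih]
      by_cases h : r = y
      · subst h
        simp only [if_true]
        rw [Nat.choose_succ_succ' (nv w r) 1]
        simp [add_comm]
      · simp [h]
  have hm : NeZero (2 * m) := ⟨by have := NeZero.ne m; positivity⟩
  refine (Meas.of_periodic (f := fun w => nv w y) (meas_nv y (2 * m))
    (fun c => ((c.choose 2 : ℕ) : ZMod m)) (choose2_per m)).congr ?_
  intro w
  rw [e w]

theorem meas_T_choose_self_two (y : α) (m : ℕ) [NeZero m] :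
    Meas (fun w : List α => ((T (fun n => (n y).choose 2) y w : ℕ) : ZMod m)) := by
  have e : ∀ w : List α, T (fun n => (n y).choose 2) y w = (nv w y).choose 3 := by
    intro w
    induction w using List.reverseRecOn with
    | nil => simp
    | append_singleton w r ih =>
      simp only [T_snoc, nv_snoc, ih]
      by_cases h : r = y
      · subst h
        simp only [if_true]
        rw [Nat.choose_succ_succ' (nv w r) 2]
        simp [add_comm]
      · simp [h]
  have hm : NeZero (6 * m) := ⟨by have := NeZero.ne m; positivity⟩
  refine (Meas.of_periodic (f := fun w => nv w y) (meas_nv y (6 * m))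
    (fun c => ((c.choose 3 : ℕ) : ZMod m)) (choose3_per m)).congr ?_
  intro w
  rw [e w]

theorem meas_T_lin (x y : α) (m : ℕ) [NeZero m] :
    Meas (fun w : List α => ((T (fun n => n x) y w : ℕ) : ZMod m)) := by
  by_cases h : x = y
  · subst h
    exact meas_T_choose_self_one x m
  · have hy : y ∉ ({x} : Set α) := by
      simpa using fun h' => h h'.symm
    refine (meas_sum_odo (q := m) {x} y hy id (fun a b hab => by simpa using hab)).congr ?_
    intro w
    simp only [id, nL_singleton]
    rfl

theorem meas_T_bin (x y : α) (m : ℕ) [NeZero m] :
    Meas (fun w : List α => ((T (fun n => (n x).choose 2) y w : ℕ) : ZMod m)) := by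
  by_cases h : x = y
  · subst h
    exact meas_T_choose_self_two x m
  · have hy : y ∉ ({x} : Set α) := by
      simpa using fun h' => h h'.symm
    have hm : NeZero (2 * m) := ⟨by have := NeZero.ne m; positivity⟩
    refine (meas_sum_odo (q := 2 * m) {x} y hy (fun c => c.choose 2) (choose2_per m)).congr ?_
    intro w
    simp only [nL_singleton]
    rfl

/-- The product rule for the mixed monomial. -/
theorem T_prod_rule (y x' : α) (h : y ≠ x') (w : List α) :
    T (fun n => n y * n x') y w + T (fun n => (n y).choose 2) x' w =
      (nv w y).choose 2 * nv w x' := by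
  induction w using List.reverseRecOn with
  | nil => simp
  | append_singleton w r ih =>
    simp only [T_snoc, nv_snoc]
    have hc : (nv w y + 1).choose 2 = (nv w y).choose 2 + nv w y := by
      rw [Nat.choose_succ_succ' (nv w y) 1]
      simp [add_comm]
    by_cases h1 : r = y
    · subst h1
      simp only [if_true, h, if_false, hc, add_zero]
      rw [add_mul, ← ih]
      ring
    · by_cases h2 : r = x'
      · subst h2
        simp only [h1, if_false, if_true, add_zero]
        rw [mul_add, mul_one, ← ih]
        ring
      · simp only [h1, h2, if_false]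
        simpa using ih

theorem meas_T_self_mul (y x' : α) (h : y ≠ x') (m : ℕ) [NeZero m] :
    Meas (fun w : List α => ((T (fun n => n y * n x') y w : ℕ) : ZMod m)) := by
  have hm : NeZero (2 * m) := ⟨by have := NeZero.ne m; positivity⟩
  have h1 : Meas (fun w : List α => (((nv w y).choose 2 : ℕ) : ZMod m)) :=
    Meas.of_periodic (f := fun w => nv w y) (meas_nv y (2 * m))
      (fun c => ((c.choose 2 : ℕ) : ZMod m)) (choose2_per m)
  have h2 := meas_nv (α := α) x' m
  have h3 := meas_T_bin y x' m
  refine ((((h1.pair h2).comp (fun c => c.1 * c.2)).sub h3)).congr ?_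
  intro w
  have := T_prod_rule y x' h w
  have h4 : (((nv w y).choose 2 : ℕ) : ZMod m) * ((nv w x' : ℕ) : ZMod m) =
      ((T (fun n => n y * n x') y w : ℕ) : ZMod m) +
        ((T (fun n => (n y).choose 2) x' w : ℕ) : ZMod m) := by
    rw [← Nat.cast_mul, ← this, Nat.cast_add]
  simp only [h4]
  ring

theorem meas_T_mul (x x' y : α) (m : ℕ) [NeZero m] :
    Meas (fun w : List α => ((T (fun n => n x * n x') y w : ℕ) : ZMod m)) := by
  by_cases hxx : x = x'
  · subst hxx
    have h1 := meas_T_bin x y m
    have h2 := meas_T_lin x y m
    refine ((h1.pair h2).comp (fun c => 2 * c.1 + c.2)).congr ?_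
    intro w
    have e : T (fun n => n x * n x) y w =
        2 * T (fun n => (n x).choose 2) y w + T (fun n => n x) y w := by
      rw [← T_const_mul, ← T_add]
      apply T_congr
      intro n
      have := Nat.two_mul_div_two_of_even (Nat.even_mul_pred_self (n x))
      rw [Nat.choose_two_right, this]
      cases hn : n x with
      | zero => simp
      | succ k => simp; ring
    simp only [e]
    push_cast
    ring
  · by_cases hxy : x = y
    · subst hxy
      exact meas_T_self_mul x x' hxx m
    · by_cases hxy' : x' = y
      · subst hxy'
        have h := meas_T_self_mul x' x (Ne.symm hxx) m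
        refine h.congr ?_
        intro w
        congr 1
        apply T_congr
        intro n
        ring
      · have hy : y ∉ ({x, x'} : Set α) := by
          simp only [Set.mem_insert_iff, Set.mem_singleton_iff, not_or]
          exact ⟨fun h' => hxy h'.symm, fun h' => hxy' h'.symm⟩
        have hm : NeZero (2 * m) := ⟨by have := NeZero.ne m; positivity⟩
        have h0 := meas_sum_odo (q := 2 * m) (m := m) {x, x'} y hy (fun c => c.choose 2)
          (choose2_per m)
        refine ((h0.sub (meas_T_bin x y m)).sub (meas_T_bin x' y m)).congr ?_
        intro w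
        have e : wsum (fun z r => if r = y then (nL {x, x'} z).choose 2 else 0) w =
            T (fun n => (n x).choose 2) y w + T (fun n => (n x').choose 2) y w +
              T (fun n => n x * n x') y w := by
          rw [← T_add, ← T_add]
          simp only [T]
          have : (fun z r => if r = y then (nL {x, x'} z).choose 2 else 0) =
              (fun z r => if r = y then
                (nv z x).choose 2 + (nv z x').choose 2 + nv z x * nv z x' else 0) := by
            funext z r
            rw [nL_pair x x' hxx z, choose2_add]
          rw [this]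
        simp only [e]
        push_cast
        ring

end meas

end Vale.Agent.Lib.P329
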