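import Vale.Agent.Lib.P329.Counts

namespace Vale.Agent.Lib.P329

open Classical

section radon

variable {α : Type} {p : ℕ} [Fact p.Prime]

theorem tau_add_mul (χ1 χ2 : α → ZMod p) (s : ZMod p) (x : List α) :
    tau (fun r => χ1 r + s * χ2 r) x = tau χ1 x + s * tau χ2 x := by
  induction x using List.reverseRecOn with
  | nil => simp
  | append_singleton x r ih =>
    simp only [tau_snoc, ih]
    ring

theorem radon (h1 h2 : ZMod p) :
    ∑ s : ZMod p, (if h1 + s * h2 = 0 then 1 else 0) + (if h2 = 0 then 1 else 0) =
      1 + p * (if h1 = 0 ∧ h2 = 0 then 1 else 0) := by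
  by_cases h : h2 = 0
  · subst h
    by_cases h' : h1 = 0
    · simp [h']
      omega
    · simp [h']
  · have : ∀ s : ZMod p, (h1 + s * h2 = 0) ↔ s = -h1 / h2 := by
      intro s
      constructor
      · intro h3
        field_simp
        linear_combination h3
      · intro h3
        rw [h3]
        field_simp
        ring
    simp only [this, h, and_false, if_false]
    simp

/-- Position counts with several clock conditions. -/
def CC (y : α) (L : List ((α → ZMod p) × ZMod p)) (x : List α) (r : α) : Prop :=
  r = y ∧ ∀ c ∈ L, tau c.1 x = c.2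

theorem radon_cnt (y : α) (c1 c2 : (α → ZMod p) × ZMod p) (L : List ((α → ZMod p) × ZMod p))
    (w : List α) :
    ∑ s : ZMod p, cnt (CC y ((fun r => c1.1 r + s * c2.1 r, c1.2 + s * c2.2) :: L)) w +
        cnt (CC y (c2 :: L)) w =
      cnt (CC y L) w + p * cnt (CC y (c1 :: c2 :: L)) w := by
  induction w using List.reverseRecOn with
  | nil => simp
  | append_singleton w r ih =>
    simp only [cnt_snoc, Finset.sum_add_distrib]
    by_cases hr : r = y
    · by_cases hL : ∀ c ∈ L, tau c.1 w = c.2
      · have h := radon (tau c1.1 w - c1.2) (tau c2.1 w - c2.2)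
        have e1 : ∀ s : ZMod p, (tau c1.1 w - c1.2 + s * (tau c2.1 w - c2.2) = 0) ↔
            CC y ((fun r => c1.1 r + s * c2.1 r, c1.2 + s * c2.2) :: L) w r := by
          intro s
          simp only [CC, hr, List.mem_cons, forall_eq_or_imp, tau_add_mul, true_and]
          constructor
          · intro h3
            exact ⟨by linear_combination h3, hL⟩
          · rintro ⟨h3, _⟩
            linear_combination h3
        have e2 : (tau c2.1 w - c2.2 = 0) ↔ CC y (c2 :: L) w r := by
          simp only [CC, hr, List.mem_cons, forall_eq_or_imp, true_and]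
          constructor
          · intro h3
            exact ⟨by linear_combination h3, hL⟩
          · rintro ⟨h3, _⟩
            linear_combination h3
        have e3 : (tau c1.1 w - c1.2 = 0 ∧ tau c2.1 w - c2.2 = 0) ↔
            CC y (c1 :: c2 :: L) w r := by
          simp only [CC, hr, List.mem_cons, forall_eq_or_imp, true_and]
          constructor
          · rintro ⟨h3, h4⟩
            exact ⟨by linear_combination h3, by linear_combination h4, hL⟩
          · rintro ⟨h3, h4, _⟩
            exact ⟨by linear_combination h3, by linear_combination h4⟩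
        have e4 : CC y L w r := ⟨hr, hL⟩
        simp only [e3] at h
        simp only [e1, e2] at h
        rw [if_pos e4]
        rw [mul_add]
        omega
      · have e : ∀ L', (∀ c ∈ L, c ∈ L') → ¬ CC y L' w r := by
          intro L' hsub h
          apply hL
          intro c hc
          exact h.2 c (hsub c hc)
        have e1 : ∀ s : ZMod p, ¬ CC y ((fun r => c1.1 r + s * c2.1 r, c1.2 + s * c2.2) :: L) w r :=
          fun s => e _ (fun c hc => List.mem_cons_of_mem _ hc)
        have e2 : ¬ CC y (c2 :: L) w r := e _ (fun c hc => List.mem_cons_of_mem _ hc)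
        have e3 : ¬ CC y (c1 :: c2 :: L) w r :=
          e _ (fun c hc => List.mem_cons_of_mem _ (List.mem_cons_of_mem _ hc))
        have e4 : ¬ CC y L w r := e _ (fun c hc => hc)
        simp only [e1, e2, e3, e4, if_false, Finset.sum_const_zero, add_zero]
        simpa using ih
    · have e : ∀ L' : List ((α → ZMod p) × ZMod p), ¬ CC y L' w r := fun L' h => hr h.1
      simp only [e, if_false, Finset.sum_const_zero, add_zero]
      simpa using ih

variable [Finite α]

theorem meas_CC (y : α) : ∀ (n : ℕ) (L : List ((α → ZMod p) × ZMod p)), L.length = n →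
    ∀ (M : ℕ) [NeZero M], Meas (fun w => ((cnt (CC y L) w : ℕ) : ZMod M)) := by
  intro n
  induction n using Nat.strong_induction_on with
  | _ n ih =>
    intro L hL M _
    match L, hL with
    | [], _ =>
      refine (meas_letter y M).congr ?_
      intro w
      have : cnt (fun _ r => r = y) w = cnt (CC y ([] : List ((α → ZMod p) × ZMod p))) w :=
        cnt_congr (fun x r => by simp [CC]) w
      rw [this]
    | [c], _ =>
      refine (meas_A c.1 y c.2 M).congr ?_
      intro w
      have : cnt (A c.1 y c.2) w = cnt (CC y [c]) w :=
        cnt_congr (fun x r => by simp [CC, A]) w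
      rw [this]
    | c1 :: c2 :: L', hL =>
      have hp : p ≠ 0 := (Fact.out : p.Prime).ne_zero
      have : NeZero (p * M) := ⟨mul_ne_zero hp (NeZero.ne M)⟩
      simp only [List.length_cons] at hL
      have h1 : ∀ s : ZMod p, Meas (fun w => ((cnt (CC y
          ((fun r => c1.1 r + s * c2.1 r, c1.2 + s * c2.2) :: L')) w : ℕ) : ZMod (p * M))) :=
        fun s => ih (L'.length + 1) (by omega) _ rfl (p * M)
      have h2 : Meas (fun w => ((cnt (CC y (c2 :: L')) w : ℕ) : ZMod (p * M))) :=
        ih (L'.length + 1) (by omega) _ rfl (p * M)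
      have h3 : Meas (fun w => ((cnt (CC y L') w : ℕ) : ZMod (p * M))) :=
        ih (L'.length) (by omega) _ rfl (p * M)
      have h4 := ((Meas.finsum h1).add h2).sub h3
      refine h4.of_factor ?_
      intro w w' he
      have key : ∀ w, ((∑ s : ZMod p, ((cnt (CC y
          ((fun r => c1.1 r + s * c2.1 r, c1.2 + s * c2.2) :: L')) w : ℕ) : ZMod (p * M))) +
          ((cnt (CC y (c2 :: L')) w : ℕ) : ZMod (p * M))) -
          ((cnt (CC y L') w : ℕ) : ZMod (p * M)) =
          (p : ZMod (p * M)) * ((cnt (CC y (c1 :: c2 :: L')) w : ℕ) : ZMod (p * M)) := by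
        intro w
        have := congrArg (Nat.cast : ℕ → ZMod (p * M)) (radon_cnt y c1 c2 L' w)
        push_cast at this
        rw [this]
        ring
      have he' := he
      simp only [key] at he'
      apply cast_of_mul hp
      rw [mul_sub, he', sub_self]

theorem meas_CC' (y : α) (L : List ((α → ZMod p) × ZMod p)) (M : ℕ) [NeZero M] :
    Meas (fun w => ((cnt (CC y L) w : ℕ) : ZMod M)) :=
  meas_CC y _ L rfl M

end radon

end Vale.Agent.Lib.P329
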