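import Vale.Agent.Lib.P329.PrimeClock

namespace Vale.Agent.Lib.P329

open Classical

section count

variable {α : Type}

/-- Count on reversed words. -/
noncomputable def cntR (P : List α → α → Prop) : List α → ℕ
  | [] => 0
  | r :: u => cntR P u + if P u.reverse r then 1 else 0

/-- The number of positions of the word `w` such that `P (prefix before the position) (letter)`. -/
noncomputable def cnt (P : List α → α → Prop) (w : List α) : ℕ := cntR P w.reverse

@[simp] theorem cnt_nil (P : List α → α → Prop) : cnt P [] = 0 := rfl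

@[simp] theorem cnt_snoc (P : List α → α → Prop) (w : List α) (r : α) :
    cnt P (w ++ [r]) = cnt P w + if P w r then 1 else 0 := by
  simp [cnt, cntR]

theorem cnt_congr {P Q : List α → α → Prop} (h : ∀ x r, P x r ↔ Q x r) (w : List α) :
    cnt P w = cnt Q w := by
  have : P = Q := by
    funext x r
    exact propext (h x r)
  rw [this]

theorem cnt_disj {P Q R : List α → α → Prop} (h : ∀ x r, R x r ↔ (P x r ∨ Q x r))
    (hd : ∀ x r, ¬ (P x r ∧ Q x r)) (w : List α) : cnt R w = cnt P w + cnt Q w := by
  induction w using List.reverseRecOn with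
  | nil => simp
  | append_singleton w x ih =>
    simp only [cnt_snoc, ih]
    have h1 := h w x
    have h2 := hd w x
    by_cases hP : P w x <;> by_cases hQ : Q w x <;> simp_all <;> omega

theorem cnt_false (w : List α) : cnt (fun _ _ => False) w = 0 := by
  induction w using List.reverseRecOn with
  | nil => simp
  | append_singleton w x ih => simp [ih]

theorem cnt_eq_zero {P : List α → α → Prop} (h : ∀ x r, ¬ P x r) (w : List α) : cnt P w = 0 := by
  rw [cnt_congr (Q := fun _ _ => False) (by simpa using h), cnt_false]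

end count

section rep

variable {α : Type} {p : ℕ} [Fact p.Prime] (a : α → ZMod p)
variable (Zs Ys Y0 : Set α)

/-- The clock representation with a counter. -/
noncomputable def stp {E : Type} [AddMonoidWithOne E] (s : ZMod p × E × Bool) (r : α) :
    ZMod p × E × Bool :=
  if a r = 0 then (if r ∈ Y0 ∧ s.1 = 0 then (0, s.2.1 + 1, false) else s)
  else if s.1 + a r = 0 then
    (0, (if s.2.2 = true ∧ r ∈ Ys then s.2.1 else s.2.1 + 1), false)
  else (s.1 + a r, s.2.1, decide (r ∈ Zs))

theorem val_succ {m : ℕ} [NeZero m] (e : ZMod m) : e + 1 = 0 ∨ (e + 1).val = e.val + 1 := by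
  by_cases h : e + 1 = 0
  · exact Or.inl h
  · right
    rcases Nat.lt_or_ge 1 m with hm | hm
    · have hlt : e.val + 1 < m := by
        by_contra hcon
        have h1 : e.val < m := ZMod.val_lt e
        have h2 : e.val + 1 = m := by omega
        apply h
        have h3 : ((e.val + 1 : ℕ) : ZMod m) = 0 := by
          rw [h2]; simp
        push_cast at h3
        simpa using h3
      have h1 : (e + 1) = ((e.val + 1 : ℕ) : ZMod m) := by
        push_cast; simp
      rw [h1, ZMod.val_natCast, Nat.mod_eq_of_lt hlt]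
    · exfalso
      apply h
      have hm1 : m = 1 := by
        have := NeZero.pos m
        omega
      subst hm1
      exact Subsingleton.elim _ _

theorem inc_ne {m : ℕ} [NeZero m] {e : ZMod m}
    (h : (((0 : ZMod p), e + 1, false) : ZMod p × ZMod m × Bool) ≠ (0, 0, false)) :
    (e + 1).val = e.val + 1 := by
  rcases val_succ e with h1 | h1
  · rw [h1] at h
    exact absurd rfl h
  · exact h1

theorem caper_stp {m : ℕ} [NeZero m] (hd : Disjoint Zs Ys) :
    CAper (stp a Zs Ys Y0 (E := ZMod m)) (0, 0, false) := by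
  refine caper_of_level _ _ (fun s => (s.1, s.2.2)) (fun s => s.2.1.val) (lev a Zs Ys Y0)
    ?_ ?_ ?_ (aper_lev a Zs Ys Y0 hd)
  · rintro ⟨l, e, b⟩ r _ hr
    by_cases h0 : a r = 0
    · by_cases hy : r ∈ Y0 ∧ l = 0
      · simp only [stp, h0, hy, and_self, if_true] at hr ⊢
        have := inc_ne hr
        omega
      · simp [stp, h0, hy]
    · by_cases hz : l + a r = 0
      · by_cases hw : b = true ∧ r ∈ Ys
        · simp [stp, h0, hz, hw]
        · simp only [stp, h0, hz, hw, if_false, if_true] at hr ⊢
          have := inc_ne hr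
          omega
      · simp [stp, h0, hz]
  · rintro ⟨l, e, b⟩ r _ hr he
    by_cases h0 : a r = 0
    · by_cases hy : r ∈ Y0 ∧ l = 0
      · simp only [stp, h0, hy, and_self, if_true] at hr he ⊢
        have := inc_ne hr
        omega
      · simp [stp, lev, h0, hy]
    · by_cases hz : l + a r = 0
      · by_cases hw : b = true ∧ r ∈ Ys
        · simp [stp, lev, h0, hz, hw]
        · simp only [stp, h0, hz, hw, if_false, if_true] at hr he ⊢
          have := inc_ne hr
          omega
      · simp [stp, lev, h0, hz]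
  · rintro ⟨l, e, b⟩ ⟨l', e', b'⟩ h1 h2
    simp only [Prod.mk.injEq] at h1
    have : e = e' := ZMod.val_injective m h2
    simp [h1.1, h1.2, this]

/-- The event counted by the counter of the clock representation. -/
def Ev (l0 : ZMod p) (b0 : Bool) (x : List α) (r : α) : Prop :=
  (a r = 0 ∧ r ∈ Y0 ∧ l0 + tau a x = 0) ∨
    (a r ≠ 0 ∧ l0 + tau a x + a r = 0 ∧
      ¬ (r ∈ Ys ∧ ((lm a x = none ∧ b0 = true) ∨ ∃ z ∈ Zs, lm a x = some z)))

theorem run_stp {E : Type} [AddMonoidWithOne E] (l0 : ZMod p) (b0 : Bool) (w : List α) :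
    (run (stp a Zs Ys Y0 (E := E)) (l0, 0, b0) w).1 = l0 + tau a w ∧
    (run (stp a Zs Ys Y0 (E := E)) (l0, 0, b0) w).2.1 = (cnt (Ev a Zs Ys Y0 l0 b0) w : E) ∧
    ((run (stp a Zs Ys Y0 (E := E)) (l0, 0, b0) w).1 ≠ 0 →
      ((run (stp a Zs Ys Y0 (E := E)) (l0, 0, b0) w).2.2 = true ↔
        ((lm a w = none ∧ b0 = true) ∨ ∃ z ∈ Zs, lm a w = some z))) := by
  induction w using List.reverseRecOn with
  | nil => simp
  | append_singleton w r ih =>
    obtain ⟨h1, h2, h3⟩ := ih
    rw [run_snoc]
    rcases hs : run (stp a Zs Ys Y0 (E := E)) (l0, 0, b0) w with ⟨l, e, b⟩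
    rw [hs] at h1 h2 h3
    simp only at h1 h2 h3
    subst h1
    subst h2
    simp only [cnt_snoc, tau_snoc, lm_snoc, Ev]
    by_cases h0 : a r = 0
    · by_cases hy : r ∈ Y0 ∧ l0 + tau a w = 0
      · simp [stp, h0, hy]
      · simp only [stp, h0, hy, if_false, if_true]
        simp only [add_zero, ne_eq, not_true_eq_false, false_and, or_false, true_and]
        exact ⟨by simp, h3⟩
    · by_cases hz : l0 + tau a w + a r = 0
      · have hne : l0 + tau a w ≠ 0 := by
          intro h
          rw [h, zero_add] at hz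
          exact h0 hz
        have h3' := h3 hne
        by_cases hb : b = true ∧ r ∈ Ys
        · have h4 := h3'.1 hb.1
          simp [stp, h0, hz, hb, h4, ← add_assoc]
        · have h4 : ¬ (r ∈ Ys ∧ ((lm a w = none ∧ b0 = true) ∨ ∃ z ∈ Zs, lm a w = some z)) := by
            rintro ⟨hr, h5⟩
            exact hb ⟨h3'.2 h5, hr⟩
          simp [stp, h0, hz, hb, h4, ← add_assoc]
      · simp [stp, h0, hz, ← add_assoc]

end rep

end Vale.Agent.Lib.P329
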