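import Vale.Agent.Lib.P329.Counts

namespace Vale.Agent.Lib.P329

open Classical

section tick

variable {Q α : Type} (δ : Q → α → Q) (q1 : Q) (a1 : α)

/-- The number of traversals of the transition `(q1, a1)` on the path of a word. -/
noncomputable def nt : Q → List α → ℕ
  | _, [] => 0
  | q, a :: w => (if q = q1 ∧ a = a1 then 1 else 0) + nt (δ q a) w

theorem nt_append (q : Q) (u v : List α) :
    nt δ q1 a1 q (u ++ v) = nt δ q1 a1 q u + nt δ q1 a1 (run δ q u) v := by
  induction u generalizing q with
  | nil => simp [nt]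
  | cons a u ih =>
    simp only [List.cons_append, nt, run_cons]
    rw [ih]
    ring

/-- The cascade of the automaton with a counter of the traversals of `(q1, a1)`. -/
noncomputable def tk {K : ℕ} (s : Q × ZMod K) (a : α) : Q × ZMod K :=
  (δ s.1 a, if s.1 = q1 ∧ a = a1 then s.2 + 1 else s.2)

theorem run_tk {K : ℕ} (q : Q) (x : ZMod K) (u : List α) :
    run (tk δ q1 a1) (q, x) u = (run δ q u, x + (nt δ q1 a1 q u : ℕ)) := by
  induction u generalizing q x with
  | nil => simp [nt]
  | cons a u ih =>
    rw [run_cons]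
    by_cases h : q = q1 ∧ a = a1
    · have : tk δ q1 a1 (q, x) a = (δ q a, x + 1) := by simp [tk, h]
      rw [this, ih]
      simp only [run_cons, nt, h, and_self, if_true]
      obtain ⟨rfl, rfl⟩ := h
      push_cast
      congr 1
      ring
    · have : tk δ q1 a1 (q, x) a = (δ q a, x) := by simp [tk, h]
      rw [this, ih]
      simp [nt, h]

theorem hits {K : ℕ} (u : List α) (q : Q) (x : ZMod K) (d : ℕ) (hd : 1 ≤ d)
    (hx : x + (d : ZMod K) = 0) (hn : d ≤ nt δ q1 a1 q u)
    (h : (q, x) ≠ ((δ q1 a1, 0) : Q × ZMod K)) :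
    run (tilde (tk δ q1 a1 (K := K)) (δ q1 a1, 0)) (some ⟨(q, x), h⟩) u = none := by
  induction u generalizing q x d with
  | nil => simp [nt] at hn; omega
  | cons a u ih =>
    rw [run_cons]
    simp only [tilde]
    by_cases hc : tk δ q1 a1 (K := K) (q, x) a = (δ q1 a1, 0)
    · rw [hc, lft_self, run_tilde_none]
    · rw [lft_of_ne _ hc]
      by_cases ht : q = q1 ∧ a = a1
      · have e : tk δ q1 a1 (K := K) (q, x) a = (δ q a, x + 1) := by simp [tk, ht]
        simp only [nt, ht, and_self, if_true] at hn
        have e2 : (⟨tk δ q1 a1 (K := K) (q, x) a, hc⟩ : {q : Q × ZMod K // q ≠ (δ q1 a1, 0)}) =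
            ⟨(δ q a, x + 1), by rw [← e]; exact hc⟩ := Subtype.ext e
        rw [e2]
        rcases Nat.lt_or_ge 1 d with h2 | h2
        · refine ih (δ q a) (x + 1) (d - 1) (by omega) ?_ ?_ _
          · have : (d : ZMod K) = ((d - 1 : ℕ) : ZMod K) + 1 := by
              rw [← Nat.cast_succ]
              congr 1
              omega
            rw [this] at hx
            rw [← hx]
            ring
          · have := ht.1
            subst this
            have := ht.2
            subst this
            omega
        · have hd1 : d = 1 := by omega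
          subst hd1
          exfalso
          apply hc
          rw [e]
          obtain ⟨rfl, rfl⟩ := ht
          simpa using hx
      · have e : tk δ q1 a1 (K := K) (q, x) a = (δ q a, x) := by simp [tk, ht]
        simp only [nt, ht, if_false, zero_add] at hn
        have e2 : (⟨tk δ q1 a1 (K := K) (q, x) a, hc⟩ : {q : Q × ZMod K // q ≠ (δ q1 a1, 0)}) =
            ⟨(δ q a, x), by rw [← e]; exact hc⟩ := Subtype.ext e
        rw [e2]
        exact ih (δ q a) x d hd hx hn _

/-- The `m`-fold power of a word. -/
def wpow (w : List α) (m : ℕ) : List α := (List.replicate m w).flatten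

theorem run_wpow {S : Type} (γ : S → α → S) (w : List α) (m : ℕ) (s : S) :
    (fun q => run γ q w)^[m] s = run γ s (wpow w m) := by
  induction m generalizing s with
  | zero => rfl
  | succ m ih =>
    rw [Function.iterate_succ_apply, ih]
    simp [wpow, List.replicate_succ]

theorem nt_wpow (w : List α) (q : Q) (hq : run δ q w = q) (m : ℕ) :
    nt δ q1 a1 q (wpow w m) = m * nt δ q1 a1 q w := by
  induction m with
  | zero => simp [wpow, nt]
  | succ m ih =>
    have : wpow w (m + 1) = w ++ wpow w m := by simp [wpow, List.replicate_succ]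
    rw [this, nt_append, hq, ih]
    ring

theorem exists_d {K : ℕ} [NeZero K] (x : ZMod K) :
    ∃ d : ℕ, 1 ≤ d ∧ d ≤ K ∧ x + (d : ZMod K) = 0 := by
  by_cases hx : x = 0
  · refine ⟨K, Nat.one_le_iff_ne_zero.2 (NeZero.ne K), le_rfl, ?_⟩
    simp [hx]
  · refine ⟨(-x).val, ?_, (ZMod.val_lt _).le, ?_⟩
    · have : (-x).val ≠ 0 := by
        intro h
        rw [ZMod.val_eq_zero] at h
        exact hx (neg_eq_zero.1 h)
      omega
    · rw [ZMod.natCast_val, ZMod.cast_id', id]
      ring

/-- A single transition of a counter-free automaton can be counted modulo any `K`: the cascade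
is center-aperiodic, with center the target of that transition with counter zero. -/
theorem caper_tk {K : ℕ} [NeZero K] (hδ : Aper δ) :
    CAper (tk δ q1 a1 (K := K)) (δ q1 a1, 0) := by
  intro w s k hk hs
  rcases s with _ | s
  · exact run_tilde_none _ _ w
  · rcases s with ⟨⟨q, x⟩, h⟩
    set c : Q × ZMod K := (δ q1 a1, 0) with hc
    have hs' : run (tilde (tk δ q1 a1 (K := K)) c) (some ⟨(q, x), h⟩) (wpow w k) =
        some ⟨(q, x), h⟩ := by
      rw [← run_wpow]
      exact hs
    have hrun := run_of_tilde (tk δ q1 a1 (K := K)) c (q := (q, x)) (t := ⟨(q, x), h⟩)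
      (u := wpow w k) (by rw [lft_of_ne c h]; exact hs')
    rw [run_tk] at hrun
    have hq : run δ q (wpow w k) = q := congrArg Prod.fst hrun
    have hfix : run δ q w = q := hδ w q k hk (by rw [run_wpow]; exact hq)
    by_cases ht : nt δ q1 a1 q w = 0
    · rcases hone : run (tilde (tk δ q1 a1 (K := K)) c) (some ⟨(q, x), h⟩) w with _ | s'
      · exfalso
        have : (fun o => run (tilde (tk δ q1 a1 (K := K)) c) o w)^[k] (some ⟨(q, x), h⟩) = none := by
          obtain ⟨k', rfl⟩ : ∃ k', k = k' + 1 := ⟨k - 1, by omega⟩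
          rw [Function.iterate_succ_apply]
          show (fun o => run (tilde (tk δ q1 a1 (K := K)) c) o w)^[k']
            (run (tilde (tk δ q1 a1 (K := K)) c) (some ⟨(q, x), h⟩) w) = none
          rw [hone, run_wpow, run_tilde_none]
        rw [this] at hs
        exact absurd hs (by simp)
      · have h2 := run_of_tilde (tk δ q1 a1 (K := K)) c (q := (q, x)) (t := s') (u := w)
          (by rw [lft_of_ne c h]; exact hone)
        rw [run_tk, hfix, ht] at h2
        simp only [Nat.cast_zero, add_zero] at h2
        have : s' = ⟨(q, x), h⟩ := Subtype.ext h2.symm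
        rw [this]
    · exfalso
      obtain ⟨d, hd1, hd2, hd3⟩ := exists_d x
      have hper : (fun o => run (tilde (tk δ q1 a1 (K := K)) c) o w)^[K * k]
          (some ⟨(q, x), h⟩) = some ⟨(q, x), h⟩ :=
        (Function.IsPeriodicPt.const_mul hs K)
      rw [run_wpow] at hper
      have hn : d ≤ nt δ q1 a1 q (wpow w (K * k)) := by
        rw [nt_wpow δ q1 a1 w q hfix]
        have h1 : 1 ≤ nt δ q1 a1 q w := Nat.one_le_iff_ne_zero.2 ht
        have h3 : K ≤ K * k := Nat.le_mul_of_pos_right K hk
        calc d ≤ K := hd2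
          _ ≤ K * k := h3
          _ ≤ K * k * nt δ q1 a1 q w := Nat.le_mul_of_pos_right _ h1
      have := hits δ q1 a1 (wpow w (K * k)) q x d hd1 hd3 hn h
      rw [this] at hper
      exact absurd hper (by simp)

end tick

section meas

variable {Q α : Type} [Finite Q] [Finite α] (δ : Q → α → Q)

theorem meas_nt {K : ℕ} [NeZero K] (hδ : Aper δ) (q1 : Q) (a1 : α) (q0 : Q) :
    Meas (fun w : List α => ((nt δ q1 a1 q0 w : ℕ) : ZMod K)) := by
  have h : Meas (fun w : List α => run (tk δ q1 a1 (K := K)) (q0, 0) w) := by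
    intro t
    exact h1_of_caper _ _ (caper_tk δ q1 a1 hδ) _ _
  refine (h.comp (fun s => s.2)).congr ?_
  intro w
  simp [run_tk]

theorem meas_run_aper (hδ : Aper δ) (q0 : Q) : Meas (fun w : List α => run δ q0 w) := by
  intro t
  exact H1.of_sf (sf_of_aper hδ q0 t)

variable {A : Type} [AddCommGroup A] [Finite A]

/-- Sum of the weights along the path of a word. -/
def psum (ω : Q → α → A) : Q → List α → A
  | _, [] => 0
  | q, a :: w => ω q a + psum ω (δ q a) w

theorem psum_eq [Fintype Q] [Fintype α] (ω : Q → α → A) (q : Q) (w : List α) :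
    psum δ ω q w = ∑ i : Q × α, (nt δ i.1 i.2 q w) • ω i.1 i.2 := by
  classical
  induction w generalizing q with
  | nil => simp [psum, nt]
  | cons a w ih =>
    simp only [psum, nt, ih, add_smul, Finset.sum_add_distrib]
    congr 1
    rw [Finset.sum_eq_single (q, a)]
    · simp
    · rintro ⟨q', a'⟩ _ hne
      have : ¬ (q = q' ∧ a = a') := by
        rintro ⟨rfl, rfl⟩
        exact hne rfl
      simp [this]
    · simp

theorem meas_psum (hδ : Aper δ) (ω : Q → α → A) (q0 : Q) :
    Meas (fun w : List α => psum δ ω q0 w) := by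
  classical
  have := Fintype.ofFinite Q
  have := Fintype.ofFinite α
  have := Fintype.ofFinite A
  set K := Nat.card A with hK
  have : NeZero K := ⟨Nat.card_pos.ne'⟩
  have h1 : Meas (fun (w : List α) (i : Q × α) => ((nt δ i.1 i.2 q0 w : ℕ) : ZMod K)) :=
    Meas.pi (fun i => meas_nt δ hδ i.1 i.2 q0)
  refine (h1.comp (fun x => ∑ i : Q × α, (x i).val • ω i.1 i.2)).congr ?_
  intro w
  rw [psum_eq]
  refine Finset.sum_congr rfl ?_
  intro i _
  rw [ZMod.val_natCast]
  have hk : K • ω i.1 i.2 = 0 := by
    rw [hK]
    exact card_nsmul_eq_zero'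
  conv_rhs => rw [← Nat.mod_add_div (nt δ i.1 i.2 q0 w) K]
  rw [add_smul, mul_comm, mul_smul, hk, smul_zero, add_zero]

theorem foldl_cascade (ω : Q → α → A) (q : Q) (a : A) (w : List α) :
    w.foldl (fun s x => (δ s.1 x, s.2 + ω s.1 x)) (q, a) = (run δ q w, a + psum δ ω q w) := by
  induction w generalizing q a with
  | nil => simp [psum, run]
  | cons x w ih =>
    simp only [List.foldl_cons]
    rw [ih]
    simp only [run_cons, psum, add_assoc]

/-- Cascades of counter-free automata with finite abelian groups. -/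
theorem gsh_le_one_of_cascade (hδ : Aper δ) (ω : Q → α → A) (s0 : Q × A) (S : Set (Q × A)) :
    GenStarHeightLeOne {w : List α | w.foldl (fun s x => (δ s.1 x, s.2 + ω s.1 x)) s0 ∈ S} := by
  have hm : Meas (fun w : List α => (run δ s0.1 w, s0.2 + psum δ ω s0.1 w)) :=
    (meas_run_aper δ hδ s0.1).pair ((meas_psum δ hδ ω s0.1).comp (fun a => s0.2 + a))
  have : {w : List α | w.foldl (fun s x => (δ s.1 x, s.2 + ω s.1 x)) s0 ∈ S} =
      ⋃ t : S, {w | (run δ s0.1 w, s0.2 + psum δ ω s0.1 w) = t.1} := by
    ext w
    have hf : w.foldl (fun s x => (δ s.1 x, s.2 + ω s.1 x)) s0 =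
        (run δ s0.1 w, s0.2 + psum δ ω s0.1 w) := foldl_cascade δ ω s0.1 s0.2 w
    simp only [Set.mem_setOf_eq, Set.mem_iUnion, Subtype.exists, exists_prop, hf]
    constructor
    · intro hw
      exact ⟨_, hw, rfl⟩
    · rintro ⟨t, ht, h⟩
      rw [h]
      exact ht
  rw [this]
  exact H1.iUnion (fun t => hm t.1)

end meas

section semidirect

variable {T A α M : Type} [Monoid T] [Finite T] [AddCommGroup A] [Finite A] [DistribMulAction T A]
  [Finite α] [Monoid M]

theorem aper_right_mul (hT : ∀ t : T, ∃ n : ℕ, t ^ n = t ^ (n + 1)) (b : α → T) :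
    Aper (fun (t : T) (x : α) => t * b x) := by
  have hrun : ∀ (w : List α) (t : T), run (fun (t : T) (x : α) => t * b x) t w = t * (w.map b).prod := by
    intro w
    induction w with
    | nil => simp [run]
    | cons x w ih =>
      intro t
      rw [run_cons, ih]
      simp [mul_assoc]
  intro w s k hk hs
  have hit : ∀ j : ℕ, (fun q => run (fun (t : T) (x : α) => t * b x) q w)^[j] s =
      s * (w.map b).prod ^ j := by
    clear hs
    intro j
    induction j with
    | zero => simp
    | succ j ih =>
      rw [Function.iterate_succ_apply', ih, hrun, pow_succ, mul_assoc]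
  rw [hit] at hs
  rw [hrun]
  set u := (w.map b).prod with hu
  obtain ⟨n, hn⟩ := hT u
  have hnn : ∀ m, u ^ (n + m) = u ^ (n + m + 1) := by
    intro m
    induction m with
    | zero => simpa using hn
    | succ m ih =>
      rw [← add_assoc, pow_succ, ih, ← pow_succ]
  have hs2 : ∀ j, s * u ^ (k * j) = s := by
    intro j
    induction j with
    | zero => simp
    | succ j ih =>
      rw [Nat.mul_succ, pow_add, ← mul_assoc, ih, hs]
  have h3 : u ^ (k * (n + 1)) = u ^ (k * (n + 1) + 1) := by
    have : n ≤ k * (n + 1) := by nlinarith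
    obtain ⟨m, hm⟩ := Nat.exists_eq_add_of_le this
    rw [hm]
    exact hnn m
  calc s * u = (s * u ^ (k * (n + 1))) * u := by rw [hs2]
    _ = s * u ^ (k * (n + 1) + 1) := by rw [mul_assoc, pow_succ]
    _ = s * u ^ (k * (n + 1)) := by rw [← h3]
    _ = s := hs2 _

/-- Every language recognized by a monoid dividing a semidirect product of a finite abelian group
by a finite aperiodic monoid has generalized star height at most one. -/
theorem gsh_le_one_of_semidirect (hT : ∀ t : T, ∃ n : ℕ, t ^ n = t ^ (n + 1))
    (ρ : M → A × T → Prop) (h0 : ∀ m, ∃ x, ρ m x) (hone : ρ 1 (0, 1))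
    (hmul : ∀ m n x y, ρ m x → ρ n y → ρ (m * n) (x.1 + x.2 • y.1, x.2 * y.2))
    (hinj : ∀ m n x, ρ m x → ρ n x → m = n) (φ : α → M) (S : Set M) :
    GenStarHeightLeOne {w : List α | (w.map φ).prod ∈ S} := by
  classical
  have : Finite (T) := inferInstance
  choose c hc using h0
  let g : α → A × T := fun x => c (φ x)
  let step : T × A → α → T × A := fun s x => (s.1 * (g x).2, s.2 + s.1 • (g x).1)
  have hfold : ∀ w : List α, ρ (w.map φ).prod ((w.foldl step (1, 0)).2, (w.foldl step (1, 0)).1) := by
    intro w
    induction w using List.reverseRecOn with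
    | nil => simpa [step] using hone
    | append_singleton w x ih =>
      rw [List.foldl_append, List.map_append, List.prod_append]
      simp only [List.foldl_cons, List.foldl_nil, List.map_cons, List.map_nil, List.prod_cons,
        List.prod_nil, mul_one]
      exact hmul _ _ _ _ ih (hc (φ x))
  have hm := gsh_le_one_of_cascade (Q := T) (α := α) (A := A)
    (fun t x => t * (g x).2) (aper_right_mul hT (fun x => (g x).2))
    (fun t x => t • (g x).1) (1, 0) {s | ∃ m ∈ S, ρ m (s.2, s.1)}
  have he : {w : List α | (w.map φ).prod ∈ S} =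
      {w : List α | w.foldl (fun s x => (s.1 * (g x).2, s.2 + s.1 • (g x).1)) (1, 0) ∈
        {s : T × A | ∃ m ∈ S, ρ m (s.2, s.1)}} := by
    ext w
    simp only [Set.mem_setOf_eq]
    constructor
    · intro h
      exact ⟨_, h, hfold w⟩
    · rintro ⟨m, hmS, hρ⟩
      rw [hinj _ _ _ (hfold w) hρ]
      exact hmS
  rw [he]
  exact hm

end semidirect

end Vale.Agent.Lib.P329
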